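import Vale.Agent.P032.Words.H151.Pal3

/-!
# The interface of the box tables
-/

namespace Vale.Agent.P032.Words.Trie

/-- a box table: values of the words, constant below every allowed palette tuple without ties; the ties of
every class are used at most once; the value of the rotated word is never reached -/
def BoxTab (D : Dat) : Prop := D.A ≤ 40 ∧ D.N ≤ 40 ∧
  ∃ (cmp : (ℕ → ℕ) → ℕ) (R : ℕ → ℕ → ℕ → Prop),
    (∀ h, Leg6 D.A D.nb D.op h → R (cmp h) 0 (cmp h)) ∧
    (∀ t h g l S, Alw D t → Leg6 D.A D.nb D.op h → Leg6 D.A D.nb D.op g → Blw D t h → Blw D t g →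
      S < 2 ^ D.r → Nat.land S (ties D t) = 0 → R l S (cmp h) →
      R l (Nat.lor S (ties D t)) (cmp g)) ∧
    (∀ h g S, Leg6 D.A D.nb D.op h → Leg6 D.A D.nb D.op g → (∀ k < 6, g k = h ((k + 1) % 6)) →
      S < 2 ^ D.r → ¬ R (cmp h) S (cmp g))

theorem boxTab_of_chkQ {D : Dat} {J Rm : List (List ℕ)} {nl : ℕ} {T : Tr} (hA : D.A ≤ 40)
    (hN : D.N ≤ 40) (hc : chkQ D J Rm nl T = true) : BoxTab D := ⟨hA, hN, box_table hA hN hc⟩

end Vale.Agent.P032.Words.Trie
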