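import Mathlib

/-!
# Comparison of all digits in base 64 at once
-/

namespace Vale.Agent.P032.Words.Trie

/-- the number with `n` digits `1` in base `64` -/
def ones : ℕ → ℕ
  | 0 => 0
  | n + 1 => 1 + 64 * ones n

/-- digit -/
def dig (i x : ℕ) : ℕ := x / 64 ^ i % 64

/-- `n` digits, all at most `c` -/
def Sm (c : ℕ) : ℕ → ℕ → Prop
  | 0, x => x = 0
  | n + 1, x => x % 64 ≤ c ∧ Sm c n (x / 64)

theorem Sm.le {c : ℕ} : ∀ {n x : ℕ}, Sm c n x → x ≤ c * ones n
  | 0, x, h => by
    have h : x = 0 := h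
    rw [h]; simp
  | n + 1, x, h => by
    have h1 := h.1
    have h2 := Sm.le (n := n) h.2
    have h3 : c * ones (n + 1) = c + 64 * (c * ones n) := by
      show c * (1 + 64 * ones n) = _
      ring
    rw [h3]
    omega

theorem Sm.of_or : ∀ {n x : ℕ}, x ||| (15 * ones n) = 15 * ones n → Sm 15 n x
  | 0, x, h => by
    have h : x ||| 0 = 0 := h
    rw [Nat.or_zero] at h
    exact h
  | n + 1, x, h => by
    have h3 : 15 * ones (n + 1) = 15 + 64 * (15 * ones n) := by
      show 15 * (1 + 64 * ones n) = _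
      ring
    rw [h3] at h
    have e1 : (15 + 64 * (15 * ones n)) % 2 ^ 6 = 15 := by
      rw [show (2 : ℕ) ^ 6 = 64 by norm_num]; omega
    have e2 : (15 + 64 * (15 * ones n)) / 2 ^ 6 = 15 * ones n := by
      rw [show (2 : ℕ) ^ 6 = 64 by norm_num]; omega
    have h4 := congrArg (fun y => y % 2 ^ 6) h
    have h5 := congrArg (fun y => y / 2 ^ 6) h
    simp only [Nat.or_mod_two_pow, Nat.or_div_two_pow, e1, e2] at h4 h5
    refine ⟨?_, Sm.of_or h5⟩
    have := Nat.left_le_or (n := x % 2 ^ 6) (m := 15)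
    rw [h4] at this
    exact this

theorem sm_mul {w : ℕ} (hw : w ≤ 16) : ∀ n, Sm 16 n (w * ones n)
  | 0 => rfl
  | n + 1 => by
    have h3 : w * ones (n + 1) = w + 64 * (w * ones n) := by
      show w * (1 + 64 * ones n) = _
      ring
    rw [h3]
    refine ⟨by omega, ?_⟩
    have : (w + 64 * (w * ones n)) / 64 = w * ones n := by omega
    rw [this]
    exact sm_mul hw n

theorem dig_mul {w : ℕ} (hw : w ≤ 16) : ∀ {n i : ℕ}, i < n → dig i (w * ones n) = w
  | 0, i, h => by omega
  | n + 1, i, h => by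
    have h3 : w * ones (n + 1) = w + 64 * (w * ones n) := by
      show w * (1 + 64 * ones n) = _
      ring
    rw [h3]
    cases i with
    | zero =>
      unfold dig
      rw [pow_zero, Nat.div_one]
      omega
    | succ i =>
      have := dig_mul hw (n := n) (i := i) (by omega)
      unfold dig at this ⊢
      rw [pow_succ', ← Nat.div_div_eq_div_mul]
      have h4 : (w + 64 * (w * ones n)) / 64 = w * ones n := by omega
      rw [h4]
      exact this

theorem swar {c : ℕ} (hc : c ≤ 16) : ∀ {n x W y : ℕ}, Sm 15 n x → Sm c n W → Sm 15 n y →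
    (x + W + 32 * ones n - y) &&& (32 * ones n) = 32 * ones n →
    ∀ i < n, dig i y ≤ dig i x + dig i W
  | 0, _, _, _, _, _, _, _, i, hi => by omega
  | n + 1, x, W, y, hx, hW, hy, h, i, hi => by
    have h3 : 32 * ones (n + 1) = 32 + 64 * (32 * ones n) := by
      show 32 * (1 + 64 * ones n) = _
      ring
    rw [h3] at h
    have hx1 := hx.1
    have hW1 := hW.1
    have hy1 := hy.1
    have hy2 : y / 64 ≤ 15 * ones n := Sm.le (n := n) hy.2
    have hA : x + W + (32 + 64 * (32 * ones n)) - y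
        = (x % 64 + W % 64 + 32 - y % 64) + 64 * (x / 64 + W / 64 + 32 * ones n - y / 64) := by
      omega
    rw [hA] at h
    have e1 : ((x % 64 + W % 64 + 32 - y % 64) + 64 * (x / 64 + W / 64 + 32 * ones n - y / 64))
        % 2 ^ 6 = x % 64 + W % 64 + 32 - y % 64 := by
      rw [show (2 : ℕ) ^ 6 = 64 by norm_num]; omega
    have e2 : ((x % 64 + W % 64 + 32 - y % 64) + 64 * (x / 64 + W / 64 + 32 * ones n - y / 64))
        / 2 ^ 6 = x / 64 + W / 64 + 32 * ones n - y / 64 := by
      rw [show (2 : ℕ) ^ 6 = 64 by norm_num]; omega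
    have e3 : (32 + 64 * (32 * ones n)) % 2 ^ 6 = 32 := by
      rw [show (2 : ℕ) ^ 6 = 64 by norm_num]; omega
    have e4 : (32 + 64 * (32 * ones n)) / 2 ^ 6 = 32 * ones n := by
      rw [show (2 : ℕ) ^ 6 = 64 by norm_num]; omega
    have h4 := congrArg (fun y => y % 2 ^ 6) h
    have h5 := congrArg (fun y => y / 2 ^ 6) h
    simp only [Nat.and_mod_two_pow, Nat.and_div_two_pow, e1, e2, e3, e4] at h4 h5
    have h6 : 32 ≤ x % 64 + W % 64 + 32 - y % 64 := by
      have := Nat.and_le_left (n := x % 64 + W % 64 + 32 - y % 64) (m := 32)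
      rw [h4] at this
      exact this
    cases i with
    | zero =>
      unfold dig
      simp only [pow_zero, Nat.div_one]
      omega
    | succ i =>
      have := swar hc (n := n) hx.2 hW.2 hy.2 h5 i (by omega)
      unfold dig at this ⊢
      rw [pow_succ', ← Nat.div_div_eq_div_mul, ← Nat.div_div_eq_div_mul, ← Nat.div_div_eq_div_mul]
      exact this

/-- comparison of the packed potentials in both directions, weight `w`; `O = ones n` -/
def ck (O w x y : ℕ) : Bool :=
  cond (Nat.beq (Nat.land (Nat.sub (Nat.add x (Nat.mul (Nat.add w 32) O)) y) (Nat.mul 32 O))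
    (Nat.mul 32 O))
  (Nat.beq (Nat.land (Nat.sub (Nat.add y (Nat.mul (Nat.add w 32) O)) x) (Nat.mul 32 O))
    (Nat.mul 32 O)) false

/-- leaf check -/
def lf (O x : ℕ) : Bool := Nat.beq (Nat.lor x (Nat.mul 15 O)) (Nat.mul 15 O)

theorem ck_spec {n w x y : ℕ} (hw : w ≤ 16) (hx : lf (ones n) x = true) (hy : lf (ones n) y = true)
    (h : ck (ones n) w x y = true) : ∀ i < n, dig i y ≤ dig i x + w ∧ dig i x ≤ dig i y + w := by
  have hx' := Sm.of_or (Nat.eq_of_beq_eq_true hx)
  have hy' := Sm.of_or (Nat.eq_of_beq_eq_true hy)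
  have e : ∀ x y : ℕ, Nat.land (Nat.sub (Nat.add x (Nat.mul (Nat.add w 32) (ones n))) y)
      (Nat.mul 32 (ones n)) = (x + w * ones n + 32 * ones n - y) &&& (32 * ones n) := by
    intro x y
    show (x + (w + 32) * ones n - y) &&& (32 * ones n) = _
    rw [Nat.add_mul, Nat.add_assoc]
  unfold ck at h
  rw [e, e] at h
  have h1 : (x + w * ones n + 32 * ones n - y) &&& (32 * ones n) = 32 * ones n := by
    cases hb : Nat.beq ((x + w * ones n + 32 * ones n - y) &&& (32 * ones n))
      (Nat.mul 32 (ones n)) with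
    | true => exact Nat.eq_of_beq_eq_true hb
    | false => rw [hb] at h; exact absurd h (by simp)
  have h2 : (y + w * ones n + 32 * ones n - x) &&& (32 * ones n) = 32 * ones n := by
    have hb : Nat.beq ((x + w * ones n + 32 * ones n - y) &&& (32 * ones n))
      (Nat.mul 32 (ones n)) = true := by
      rw [h1]; exact Nat.beq_refl _
    rw [hb] at h
    exact Nat.eq_of_beq_eq_true h
  intro i hi
  have h1 := swar le_rfl hx' (sm_mul hw n) hy' h1 i hi
  have h2 := swar le_rfl hy' (sm_mul hw n) hx' h2 i hi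
  rw [dig_mul hw hi] at h1 h2
  exact ⟨h1, h2⟩

end Vale.Agent.P032.Words.Trie
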