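import Vale.Agent.P032.Words.H151.Trie
import Vale.Agent.P032.Words.H151.Swar

/-!
# The two circles of a BETA pair: moves, costs, the table theorem

Joint letters `0..9` = `(e,d) (e,f) (e,P) (f,d) (f,P) (f,Q) (A,d) (A,f) (C,f) (C,Q)`; letters of the first
circle `0 = e, 1 = f, 2 = A, 3 = C`, of the second circle `0 = d, 1 = f, 2 = P, 3 = Q`.
Counted changes: `A|e, C|f, A|f, C|e` on the first circle, `P|d, Q|f, P|f, Q|d` on the second one.
-/

namespace Vale.Agent.P032.Words.Trie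

/-- letter of the first circle -/
def zl (a : ℕ) : ℕ := ([0, 0, 0, 1, 1, 1, 2, 2, 3, 3] : List ℕ).getD a 0

/-- letter of the second circle -/
def vl (a : ℕ) : ℕ := ([0, 1, 2, 0, 2, 3, 0, 1, 1, 3] : List ℕ).getD a 0

/-- joint letter -/
def jn (z v : ℕ) : ℕ := (([[0, 1, 2, 10], [3, 10, 4, 5], [6, 7, 10, 10], [10, 8, 10, 9]] :
  List (List ℕ)).getD z []).getD v 10

/-- neighbours -/
def nb (a b : ℕ) : Bool := !(Nat.beq (zl a) (zl b)) && !(Nat.beq (vl a) (vl b))

/-- the two pair letters are not the same -/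
def oo (a b : ℕ) : Bool := (Nat.beq a 2 && Nat.beq b 3) || (Nat.beq a 3 && Nat.beq b 2)

/-- antipodes -/
def op (a b : ℕ) : Bool := !(oo (zl a) (zl b)) && !(oo (vl a) (vl b))

/-- legal joint words -/
structure LegB (h : ℕ → ℕ) : Prop where
  lt : ∀ k < 6, h k < 10
  n0 : nb (h 0) (h 1) = true
  n1 : nb (h 1) (h 2) = true
  n2 : nb (h 2) (h 3) = true
  n3 : nb (h 3) (h 4) = true
  n4 : nb (h 4) (h 5) = true
  n5 : nb (h 5) (h 0) = true
  o0 : op (h 0) (h 3) = true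
  o1 : op (h 1) (h 4) = true
  o2 : op (h 2) (h 5) = true

/-- the word as a list -/
def wl (h : ℕ → ℕ) : List ℕ := [h 0, h 1, h 2, h 3, h 4, h 5]

/-- letters which are neighbours of a letter, as a mask -/
def NB (a : ℕ) : ℕ := List.getD [944, 632, 1000, 902, 963, 455, 822, 573, 125, 223] a 0

/-- letters which may be opposite to a letter, as a mask -/
def OP (a : ℕ) : ℕ := List.getD [1023, 1023, 479, 1023, 479, 1003, 255, 255, 831, 811] a 0

/-- the masks of the remaining positions after the letter `a` -/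
def up (a : ℕ) : List ℕ → List ℕ
  | [m1, m2, m3, m4, m5] => [Nat.land m1 (NB a), m2, Nat.land m3 (OP a), m4, Nat.land m5 (NB a)]
  | [m1, m2, m3, m4] => [Nat.land m1 (NB a), m2, Nat.land m3 (OP a), m4]
  | [m1, m2, m3] => [Nat.land m1 (NB a), m2, Nat.land m3 (OP a)]
  | [m1, m2] => [Nat.land m1 (NB a), m2]
  | [m1] => [Nat.land m1 (NB a)]
  | _ => []

theorem bt_NB : ∀ a < 10, ∀ b < 10, bt (NB a) b = nb a b := by decide

theorem bt_OP : ∀ a < 10, ∀ b < 10, bt (OP a) b = op a b := by decide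

theorem nb_symm : ∀ a < 10, ∀ b < 10, nb a b = nb b a := by decide

theorem LegB.adm {h : ℕ → ℕ} (hL : LegB h) {m0 m1 m2 m3 m4 m5 : ℕ} (b0 : bt m0 (h 0) = true)
    (b1 : bt m1 (h 1) = true) (b2 : bt m2 (h 2) = true) (b3 : bt m3 (h 3) = true)
    (b4 : bt m4 (h 4) = true) (b5 : bt m5 (h 5) = true) :
    Adm up [m0, m1, m2, m3, m4, m5] (wl h) := by
  have l := hL.lt
  refine ⟨l 0 (by norm_num), b0, l 1 (by norm_num), ?_, l 2 (by norm_num), ?_, l 3 (by norm_num), ?_,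
    l 4 (by norm_num), ?_, l 5 (by norm_num), ?_, trivial⟩
  · rw [bt_land, b1, bt_NB _ (l 0 (by norm_num)) _ (l 1 (by norm_num)), hL.n0]; rfl
  · rw [bt_land, b2, bt_NB _ (l 1 (by norm_num)) _ (l 2 (by norm_num)), hL.n1]; rfl
  · rw [bt_land, bt_land, b3, bt_OP _ (l 0 (by norm_num)) _ (l 3 (by norm_num)),
      bt_NB _ (l 2 (by norm_num)) _ (l 3 (by norm_num)), hL.n2, hL.o0]; rfl
  · rw [bt_land, bt_land, b4, bt_OP _ (l 1 (by norm_num)) _ (l 4 (by norm_num)),
      bt_NB _ (l 3 (by norm_num)) _ (l 4 (by norm_num)), hL.n3, hL.o1]; rfl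
  · rw [bt_land, bt_land, bt_land, b5, bt_OP _ (l 2 (by norm_num)) _ (l 5 (by norm_num)),
      bt_NB _ (l 0 (by norm_num)) _ (l 5 (by norm_num)),
      bt_NB _ (l 4 (by norm_num)) _ (l 5 (by norm_num)),
      nb_symm _ (l 0 (by norm_num)) _ (l 5 (by norm_num)), hL.n4, hL.n5, hL.o2]; rfl

/-- weight of a change on the first circle -/
def zc (w : List ℕ) (a b : ℕ) : ℕ :=
  bif (Nat.beq a 2 && Nat.beq b 0) || (Nat.beq a 0 && Nat.beq b 2) then w.getD 0 0 else
  bif (Nat.beq a 3 && Nat.beq b 1) || (Nat.beq a 1 && Nat.beq b 3) then w.getD 1 0 else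
  bif (Nat.beq a 2 && Nat.beq b 1) || (Nat.beq a 1 && Nat.beq b 2) then w.getD 2 0 else
  bif (Nat.beq a 3 && Nat.beq b 0) || (Nat.beq a 0 && Nat.beq b 3) then w.getD 3 0 else 0

/-- weight of a change on the second circle -/
def vc (w : List ℕ) (a b : ℕ) : ℕ :=
  bif (Nat.beq a 2 && Nat.beq b 0) || (Nat.beq a 0 && Nat.beq b 2) then w.getD 4 0 else
  bif (Nat.beq a 3 && Nat.beq b 1) || (Nat.beq a 1 && Nat.beq b 3) then w.getD 5 0 else
  bif (Nat.beq a 2 && Nat.beq b 1) || (Nat.beq a 1 && Nat.beq b 2) then w.getD 6 0 else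
  bif (Nat.beq a 3 && Nat.beq b 0) || (Nat.beq a 0 && Nat.beq b 3) then w.getD 7 0 else 0

/-- weight of a change of a joint letter -/
def cost (w : List ℕ) (a b : ℕ) : ℕ := zc w (zl a) (zl b) + vc w (vl a) (vl b)

/-- allowed change of one joint letter -/
def al (a b : ℕ) : Bool :=
  bif Nat.beq (zl a) (zl b) then !(Nat.beq (vl a) (vl b)) && !(oo (vl a) (vl b)) else
    Nat.beq (vl a) (vl b) && !(oo (zl a) (zl b))

/-- total weight of a change of words -/
def costW (w : List ℕ) (h g : ℕ → ℕ) : ℕ :=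
  cost w (h 0) (g 0) + (cost w (h 1) (g 1) + (cost w (h 2) (g 2) + (cost w (h 3) (g 3) +
    (cost w (h 4) (g 4) + cost w (h 5) (g 5)))))

/-- weight of a move -/
def mcost (w : List ℕ) : List Lv → ℕ
  | [] => 0
  | .s _ :: L => mcost w L
  | .c a b :: L => cost w a b + mcost w L

/-- the sixteen shapes of simultaneous changes -/
def shapes : List (List Lv) := [
  [.c 7 2, .c 0 8, .s [0, 1, 2, 3, 4, 6, 7, 8], .s [0, 1, 3, 5, 6, 7, 8, 9], .s [1, 2, 7, 8, 9], .s [0, 1, 2, 3, 4, 6, 7]],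
  [.c 6 4, .c 5 0, .s [0, 1, 2, 3, 4, 5, 6, 7], .s [0, 1, 2, 3, 4, 5, 8, 9], .s [3, 4, 5, 6, 9], .s [0, 1, 2, 3, 4, 6, 7]],
  [.c 8 0, .c 2 7, .s [0, 1, 2, 3, 4, 6, 7], .s [1, 2, 7, 8, 9], .s [0, 1, 3, 5, 6, 7, 8, 9], .s [0, 1, 2, 3, 4, 6, 7, 8]],
  [.c 2 7, .c 8 0, .s [0, 1, 2, 3, 4, 6, 7, 8], .s [0, 1, 3, 5, 6, 7, 8, 9], .s [1, 2, 7, 8, 9], .s [0, 1, 2, 3, 4, 6, 7]],
  [.c 0 8, .c 7 2, .s [0, 1, 2, 3, 4, 6, 7], .s [1, 2, 7, 8, 9], .s [0, 1, 3, 5, 6, 7, 8, 9], .s [0, 1, 2, 3, 4, 6, 7, 8]],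
  [.c 0 5, .c 4 6, .s [0, 1, 2, 3, 4, 6, 7], .s [3, 4, 5, 6, 9], .s [0, 1, 2, 3, 4, 5, 8, 9], .s [0, 1, 2, 3, 4, 5, 6, 7]],
  [.c 4 6, .c 0 5, .s [0, 1, 2, 3, 4, 5, 6, 7], .s [0, 1, 2, 3, 4, 5, 8, 9], .s [3, 4, 5, 6, 9], .s [0, 1, 2, 3, 4, 6, 7]],
  [.c 5 0, .c 6 4, .s [0, 1, 2, 3, 4, 6, 7], .s [3, 4, 5, 6, 9], .s [0, 1, 2, 3, 4, 5, 8, 9], .s [0, 1, 2, 3, 4, 5, 6, 7]],
  [.c 7 2, .c 0 8, .c 7 2, .s [0, 1, 2, 3, 4, 5, 6, 7, 8, 9], .s [0, 1, 2, 3, 4, 5, 6, 7, 8, 9], .s [0, 1, 2, 3, 4, 5, 6, 7, 8, 9]],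
  [.c 6 4, .c 5 0, .c 6 4, .s [0, 1, 2, 3, 4, 5, 6, 7, 8, 9], .s [0, 1, 2, 3, 4, 5, 6, 7, 8, 9], .s [0, 1, 2, 3, 4, 5, 6, 7, 8, 9]],
  [.c 8 0, .c 2 7, .c 8 0, .s [0, 1, 2, 3, 4, 6, 7, 8], .s [0, 1, 3, 5, 6, 7, 8, 9], .s [0, 1, 2, 3, 4, 6, 7, 8]],
  [.c 2 7, .c 8 0, .c 2 7, .s [0, 1, 2, 3, 4, 5, 6, 7, 8, 9], .s [0, 1, 2, 3, 4, 5, 6, 7, 8, 9], .s [0, 1, 2, 3, 4, 5, 6, 7, 8, 9]],
  [.c 0 8, .c 7 2, .c 0 8, .s [0, 1, 2, 3, 4, 6, 7, 8], .s [0, 1, 3, 5, 6, 7, 8, 9], .s [0, 1, 2, 3, 4, 6, 7, 8]],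
  [.c 0 5, .c 4 6, .c 0 5, .s [0, 1, 2, 3, 4, 5, 6, 7], .s [0, 1, 2, 3, 4, 5, 8, 9], .s [0, 1, 2, 3, 4, 5, 6, 7]],
  [.c 4 6, .c 0 5, .c 4 6, .s [0, 1, 2, 3, 4, 5, 6, 7, 8, 9], .s [0, 1, 2, 3, 4, 5, 6, 7, 8, 9], .s [0, 1, 2, 3, 4, 5, 6, 7, 8, 9]],
  [.c 5 0, .c 6 4, .c 5 0, .s [0, 1, 2, 3, 4, 5, 6, 7], .s [0, 1, 2, 3, 4, 5, 8, 9], .s [0, 1, 2, 3, 4, 5, 6, 7]]]

/-- the four simultaneous changes of all twelve letters -/
def rings : List (List Lv) := [
  [.c 2 6, .c 3 1, .c 2 6, .c 3 1, .c 2 6, .c 3 1], [.c 3 1, .c 2 6, .c 3 1, .c 2 6, .c 3 1, .c 2 6],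
  [.c 6 2, .c 1 3, .c 6 2, .c 1 3, .c 6 2, .c 1 3], [.c 1 3, .c 6 2, .c 1 3, .c 6 2, .c 1 3, .c 6 2]]

/-- all simultaneous changes -/
def multi : List (List Lv) := rings ++ shapes.flatMap fun s => (List.range 6).map fun r => s.rotate r

/-- one move -/
inductive StepB : (ℕ → ℕ) → (ℕ → ℕ) → Prop
  | single {h : ℕ → ℕ} {k b : ℕ} (hk : k < 6) (h1 : LegB h) (h2 : LegB (Function.update h k b))
      (ha : al (h k) b = true) : StepB h (Function.update h k b)
  | multi {h g : ℕ → ℕ} {m : List Lv} (hm : m ∈ multi) (h1 : LegB h) (h2 : LegB g)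
      (hf : FitW m (wl h) (wl g)) : StepB h g

/-- paths with their total weight -/
inductive PathB (w : List ℕ) : (ℕ → ℕ) → ℕ → (ℕ → ℕ) → Prop
  | refl (h : ℕ → ℕ) : PathB w h 0 h
  | tail {h g g' : ℕ → ℕ} {n : ℕ} : PathB w h n g → StepB g g' → PathB w h (n + costW w g g') g'

/-- the masks of a 0- state: `z = (A, f, *, *, *, f)`, `v = (*, *, f, X, f, *)` -/
def lk (X : ℕ) : List ℕ := [192, 56, 386, List.getD [73, 386, 20, 544] X 0, 386, 56]

theorem bt_lk : ∀ a < 10, (zl a = 2 → bt 192 a = true) ∧ (zl a = 1 → bt 56 a = true) ∧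
    (vl a = 1 → bt 386 a = true) ∧ bt (List.getD [73, 386, 20, 544] (vl a) 0) a = true := by decide

/-- the value of a leaf -/
def Tr.val : Tr → ℕ
  | .l v => v
  | _ => 0

/-- some potential is `0` at the start and at least `m` at the end -/
def exd (m x y : ℕ) : ℕ → Bool
  | 0 => false
  | i + 1 => (Nat.beq (dig i x) 0 && Nat.ble m (dig i y)) || exd m x y i

theorem exd_spec {m x y : ℕ} : ∀ {n : ℕ}, exd m x y n = true → ∃ i < n, dig i x = 0 ∧ m ≤ dig i y
  | 0, h => absurd h (by simp [exd])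
  | n + 1, h => by
    have h' : ((Nat.beq (dig n x) 0 && Nat.ble m (dig n y)) || exd m x y n) = true := h
    rw [Bool.or_eq_true, Bool.and_eq_true] at h'
    rcases h' with ⟨h1, h2⟩ | h1
    · exact ⟨n, by omega, Nat.eq_of_beq_eq_true h1, Nat.le_of_ble_eq_true h2⟩
    · obtain ⟨i, hi, h3⟩ := exd_spec h1
      exact ⟨i, by omega, h3⟩

/-- the check at a 0- state (reversed list) -/
noncomputable def lkf (T : Tr) (nf m Y : ℕ) : List ℕ → Bool
  | [a5, a4, a3, a2, a1, a0] =>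
    match get T [jn 0 (vl a0), a1, a2, jn (zl a3) Y, a4, a5] with
    | .l y => exd m y (get T [a1, a2, a3, a4, a5, a0]).val nf
    | _ => true
  | _ => false

/-- allowed change, smaller letter first -/
def al' (a b : ℕ) : Bool := cond (Nat.blt a b) (al a b) false

/-- everything which has to be checked -/
noncomputable def chk (w : List ℕ) (nf m X Y : ℕ) (T : Tr) : Bool :=
  fN (ones nf) fun O =>
  cov up (lf O) 6 [1023, 1023, 1023, 1023, 1023, 1023] T && wd al' (ck O) (cost w) 6 T &&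
  multi.all (fun L => fN (mcost w L) fun W => mw (ck O W) L T T) &&
  enum up (lkf T nf m Y) 6 (lk X) [] && w.all (fun c => Nat.ble c 3) &&
  multi.all (fun L => Nat.ble (mcost w L) 16)

/-! ### The table theorem -/

theorem zc_self {w : List ℕ} : ∀ a : ℕ, zc w a a = 0
  | 0 => rfl
  | 1 => rfl
  | 2 => rfl
  | 3 => rfl
  | _ + 4 => rfl

theorem vc_self {w : List ℕ} : ∀ a : ℕ, vc w a a = 0
  | 0 => rfl
  | 1 => rfl
  | 2 => rfl
  | 3 => rfl
  | _ + 4 => rfl

theorem cost_self {w : List ℕ} (a : ℕ) : cost w a a = 0 := by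
  unfold cost
  rw [zc_self, vc_self]

theorem symm_aux (a b i j : ℕ) : ((Nat.beq a i && Nat.beq b j) || (Nat.beq a j && Nat.beq b i)) =
    ((Nat.beq b i && Nat.beq a j) || (Nat.beq b j && Nat.beq a i)) := by
  rw [Bool.or_comm, Bool.and_comm (Nat.beq a j), Bool.and_comm (Nat.beq a i)]

theorem zc_symm {w : List ℕ} (a b : ℕ) : zc w a b = zc w b a := by
  unfold zc
  rw [symm_aux a b 2 0, symm_aux a b 3 1, symm_aux a b 2 1, symm_aux a b 3 0]

theorem vc_symm {w : List ℕ} (a b : ℕ) : vc w a b = vc w b a := by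
  unfold vc
  rw [symm_aux a b 2 0, symm_aux a b 3 1, symm_aux a b 2 1, symm_aux a b 3 0]

theorem cost_symm {w : List ℕ} (a b : ℕ) : cost w a b = cost w b a := by
  unfold cost
  rw [zc_symm, vc_symm]

theorem zc_le {w : List ℕ} (hw : ∀ i, w.getD i 0 ≤ 3) (a b : ℕ) : zc w a b ≤ 3 := by
  unfold zc
  have h0 := hw 0
  have h1 := hw 1
  have h2 := hw 2
  have h3 := hw 3
  cases ((Nat.beq a 2 && Nat.beq b 0) || (Nat.beq a 0 && Nat.beq b 2)) <;>
  cases ((Nat.beq a 3 && Nat.beq b 1) || (Nat.beq a 1 && Nat.beq b 3)) <;>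
  cases ((Nat.beq a 2 && Nat.beq b 1) || (Nat.beq a 1 && Nat.beq b 2)) <;>
  cases ((Nat.beq a 3 && Nat.beq b 0) || (Nat.beq a 0 && Nat.beq b 3)) <;>
  simp only [cond_true, cond_false] <;> omega

theorem vc_le {w : List ℕ} (hw : ∀ i, w.getD i 0 ≤ 3) (a b : ℕ) : vc w a b ≤ 3 := by
  unfold vc
  have h0 := hw 4
  have h1 := hw 5
  have h2 := hw 6
  have h3 := hw 7
  cases ((Nat.beq a 2 && Nat.beq b 0) || (Nat.beq a 0 && Nat.beq b 2)) <;>
  cases ((Nat.beq a 3 && Nat.beq b 1) || (Nat.beq a 1 && Nat.beq b 3)) <;>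
  cases ((Nat.beq a 2 && Nat.beq b 1) || (Nat.beq a 1 && Nat.beq b 2)) <;>
  cases ((Nat.beq a 3 && Nat.beq b 0) || (Nat.beq a 0 && Nat.beq b 3)) <;>
  simp only [cond_true, cond_false] <;> omega

theorem cost_le {w : List ℕ} (hw : ∀ i, w.getD i 0 ≤ 3) (a b : ℕ) : cost w a b ≤ 16 := by
  have h1 := zc_le hw (zl a) (zl b)
  have h2 := vc_le hw (vl a) (vl b)
  unfold cost
  omega

theorem al_symm (a b : ℕ) : al a b = al b a := by
  unfold al oo
  rw [show Nat.beq (zl a) (zl b) = Nat.beq (zl b) (zl a) by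
      rw [Bool.eq_iff_iff]; constructor <;> intro h <;> rw [Nat.eq_of_beq_eq_true h] <;>
      exact Nat.beq_refl _,
    show Nat.beq (vl a) (vl b) = Nat.beq (vl b) (vl a) by
      rw [Bool.eq_iff_iff]; constructor <;> intro h <;> rw [Nat.eq_of_beq_eq_true h] <;>
      exact Nat.beq_refl _, symm_aux (vl a) (vl b) 2 3, symm_aux (zl a) (zl b) 2 3]

theorem al_ne {a : ℕ} : al a a = false := by
  unfold al
  rw [show Nat.beq (zl a) (zl a) = true from Nat.beq_refl _,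
    show Nat.beq (vl a) (vl a) = true from Nat.beq_refl _]
  rfl

/-- cost of two lists -/
def costL (w : List ℕ) : List ℕ → List ℕ → ℕ
  | a :: l, b :: l' => cost w a b + costL w l l'
  | _, _ => 0

theorem costL_eq {w : List ℕ} (h g : ℕ → ℕ) : costL w (wl h) (wl g) = costW w h g := rfl

theorem costL_fit {w : List ℕ} : ∀ {L : List Lv} {l l' : List ℕ}, FitW L l l' →
    costL w l l' = mcost w L
  | [], [], [], _ => rfl
  | .s m :: L, a :: l, b :: l', h => by
    obtain ⟨⟨rfl, _⟩, h⟩ := h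
    show cost w a a + costL w l l' = mcost w L
    rw [cost_self, costL_fit h, Nat.zero_add]
  | .c p q :: L, a :: l, b :: l', h => by
    obtain ⟨⟨rfl, rfl⟩, h⟩ := h
    show cost w a b + costL w l l' = cost w a b + mcost w L
    rw [costL_fit h]
  | [], _ :: _, _, hf => absurd hf (by simp [FitW])
  | [], [], _ :: _, hf => absurd hf (by simp [FitW])
  | .s _ :: _, [], l', hf => absurd hf (by cases l' <;> simp [FitW])
  | .s _ :: _, _ :: _, [], hf => absurd hf (by simp [FitW])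
  | .c _ _ :: _, [], l', hf => absurd hf (by cases l' <;> simp [FitW])
  | .c _ _ :: _, _ :: _, [], hf => absurd hf (by simp [FitW])

/-- everything known from the check -/
structure Ok (w : List ℕ) (nf m X Y : ℕ) (T : Tr) : Prop where
  cv : cov up (lf (ones nf)) 6 [1023, 1023, 1023, 1023, 1023, 1023] T = true
  sg : wd al' (ck (ones nf)) (cost w) 6 T = true
  ml : ∀ L ∈ multi, mw (ck (ones nf) (mcost w L)) L T T = true
  en : enum up (lkf T nf m Y) 6 (lk X) [] = true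
  w3 : ∀ i, w.getD i 0 ≤ 3
  m16 : ∀ L ∈ multi, mcost w L ≤ 16

theorem getD_le {w : List ℕ} (h : w.all (fun c => Nat.ble c 3) = true) : ∀ i, w.getD i 0 ≤ 3 := by
  intro i
  rw [List.getD_eq_getElem?_getD]
  cases hi : w[i]? with
  | none => simp
  | some c =>
    have : c ∈ w := List.mem_of_getElem? hi
    exact Nat.le_of_ble_eq_true (List.all_eq_true.1 h c this)

theorem ok_of_chk {w : List ℕ} {nf m X Y : ℕ} {T : Tr} (h : chk w nf m X Y T = true) :
    Ok w nf m X Y T := by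
  unfold chk at h
  simp only [fN_eq, Bool.and_eq_true] at h
  obtain ⟨⟨⟨⟨⟨h1, h2⟩, h3⟩, h4⟩, h5⟩, h6⟩ := h
  exact ⟨h1, h2, fun L hL => List.all_eq_true.1 h3 L hL, h4, getD_le h5,
    fun L hL => Nat.le_of_ble_eq_true (List.all_eq_true.1 h6 L hL)⟩

theorem bt_full : ∀ a < 10, bt 1023 a = true := by decide

/-- the packed potentials of a word -/
noncomputable def pv (T : Tr) (h : ℕ → ℕ) : ℕ := (get T (wl h)).val

theorem Ok.leaf {w : List ℕ} {nf m X Y : ℕ} {T : Tr} (H : Ok w nf m X Y T) {h : ℕ → ℕ}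
    (hL : LegB h) : get T (wl h) = .l (pv T h) ∧ lf (ones nf) (pv T h) = true := by
  obtain ⟨v, h1, h2⟩ := cov_spec (w := wl h) H.cv (hL.adm (bt_full _ (hL.lt 0 (by norm_num)))
    (bt_full _ (hL.lt 1 (by norm_num))) (bt_full _ (hL.lt 2 (by norm_num)))
    (bt_full _ (hL.lt 3 (by norm_num))) (bt_full _ (hL.lt 4 (by norm_num)))
    (bt_full _ (hL.lt 5 (by norm_num))))
  have : pv T h = v := by unfold pv; rw [h1]; rfl
  rw [this]
  exact ⟨h1, h2⟩

theorem Ok.single {w : List ℕ} {nf m X Y : ℕ} {T : Tr} (H : Ok w nf m X Y T) {h g : ℕ → ℕ}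
    (h1 : LegB h) (h2 : LegB g) {r s : List ℕ} {a b : ℕ} (e1 : wl h = r ++ a :: s)
    (e2 : wl g = r ++ b :: s) (hr : 6 = r.length + s.length + 1) (ha : al a b = true) :
    ∀ i < nf, dig i (pv T g) ≤ dig i (pv T h) + cost w a b := by
  obtain ⟨g1, l1⟩ := H.leaf h1
  obtain ⟨g2, l2⟩ := H.leaf h2
  rw [e1] at g1
  rw [e2] at g2
  intro i hi
  rcases lt_trichotomy a b with hab | hab | hab
  · have ha' : al' a b = true := by
      unfold al'
      rw [show Nat.blt a b = true from Nat.ble_eq_true_of_le hab, cond_true]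
      exact ha
    have := wd_spec ha' hr H.sg g1 g2
    exact (ck_spec (cost_le H.w3 a b) l1 l2 this i hi).1
  · subst hab
    rw [al_ne] at ha
    exact absurd ha (by simp)
  · rw [al_symm] at ha
    have ha' : al' b a = true := by
      unfold al'
      rw [show Nat.blt b a = true from Nat.ble_eq_true_of_le hab, cond_true]
      exact ha
    have := wd_spec ha' hr H.sg g2 g1
    rw [cost_symm]
    exact (ck_spec (cost_le H.w3 b a) l2 l1 this i hi).2

theorem Ok.step {w : List ℕ} {nf m X Y : ℕ} {T : Tr} (H : Ok w nf m X Y T) {h g : ℕ → ℕ}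
    (hs : StepB h g) : LegB h ∧ LegB g ∧ ∀ i < nf, dig i (pv T g) ≤ dig i (pv T h) + costW w h g := by
  cases hs with
  | @single k b hk h1 h2 ha =>
    refine ⟨h1, h2, ?_⟩
    obtain rfl | rfl | rfl | rfl | rfl | rfl : k = 0 ∨ k = 1 ∨ k = 2 ∨ k = 3 ∨ k = 4 ∨ k = 5 := by
      omega
    · have := H.single h1 h2 (r := []) (s := [h 1, h 2, h 3, h 4, h 5]) rfl
        (by simp [wl, Function.update]) rfl ha
      have e : costW w h (Function.update h 0 b) = cost w (h 0) b := by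
        simp [costW, Function.update, cost_self]
      rw [e]; exact this
    · have := H.single h1 h2 (r := [h 0]) (s := [h 2, h 3, h 4, h 5]) rfl
        (by simp [wl, Function.update]) rfl ha
      have e : costW w h (Function.update h 1 b) = cost w (h 1) b := by
        simp [costW, Function.update, cost_self]
      rw [e]; exact this
    · have := H.single h1 h2 (r := [h 0, h 1]) (s := [h 3, h 4, h 5]) rfl
        (by simp [wl, Function.update]) rfl ha
      have e : costW w h (Function.update h 2 b) = cost w (h 2) b := by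
        simp [costW, Function.update, cost_self]
      rw [e]; exact this
    · have := H.single h1 h2 (r := [h 0, h 1, h 2]) (s := [h 4, h 5]) rfl
        (by simp [wl, Function.update]) rfl ha
      have e : costW w h (Function.update h 3 b) = cost w (h 3) b := by
        simp [costW, Function.update, cost_self]
      rw [e]; exact this
    · have := H.single h1 h2 (r := [h 0, h 1, h 2, h 3]) (s := [h 5]) rfl
        (by simp [wl, Function.update]) rfl ha
      have e : costW w h (Function.update h 4 b) = cost w (h 4) b := by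
        simp [costW, Function.update, cost_self]
      rw [e]; exact this
    · have := H.single h1 h2 (r := [h 0, h 1, h 2, h 3, h 4]) (s := []) rfl
        (by simp [wl, Function.update]) rfl ha
      have e : costW w h (Function.update h 5 b) = cost w (h 5) b := by
        simp [costW, Function.update, cost_self]
      rw [e]; exact this
  | @multi _ M hm h1 h2 hf =>
    refine ⟨h1, h2, ?_⟩
    intro i hi
    obtain ⟨g1, l1⟩ := H.leaf h1
    obtain ⟨g2, l2⟩ := H.leaf h2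
    have h3 := mw_spec (H.ml M hm) hf g1 g2
    have h4 := (ck_spec (H.m16 M hm) l1 l2 h3 i hi).1
    rw [← costL_eq, costL_fit hf]
    exact h4

theorem Ok.path {w : List ℕ} {nf m X Y : ℕ} {T : Tr} (H : Ok w nf m X Y T) {h g : ℕ → ℕ} {n : ℕ}
    (hp : PathB w h n g) : ∀ i < nf, dig i (pv T g) ≤ dig i (pv T h) + n := by
  induction hp with
  | refl => intro i _; omega
  | tail _ hs ih =>
    intro i hi
    have h1 := ih i hi
    have h2 := (H.step hs).2.2 i hi
    omega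

/-- **The table theorem.**  `x` is the word right before the special instant, `y` the word right after it,
`e` (right before the next special instant) is `x` seen from the next position. -/
theorem beta_table {w : List ℕ} {nf m X Y : ℕ} {T : Tr} (hc : chk w nf m X Y T = true)
    {x y e : ℕ → ℕ} {n : ℕ} (hx : LegB x) (hy : LegB y) (z0 : zl (x 0) = 2) (z1 : zl (x 1) = 1)
    (z5 : zl (x 5) = 1) (v2 : vl (x 2) = 1) (v4 : vl (x 4) = 1) (v3 : vl (x 3) = X)
    (y0 : y 0 = jn 0 (vl (x 0))) (y3 : y 3 = jn (zl (x 3)) Y) (y1 : y 1 = x 1) (y2 : y 2 = x 2)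
    (y4 : y 4 = x 4) (y5 : y 5 = x 5) (he : ∀ k < 6, e k = x ((k + 1) % 6))
    (hp : PathB w y n e) : m ≤ n := by
  have H := ok_of_chk hc
  have l := hx.lt
  have hlk : Adm up (lk X) (wl x) := by
    refine hx.adm ((bt_lk _ (l 0 (by norm_num))).1 z0) ((bt_lk _ (l 1 (by norm_num))).2.1 z1)
      ((bt_lk _ (l 2 (by norm_num))).2.2.1 v2) ?_ ((bt_lk _ (l 4 (by norm_num))).2.2.1 v4)
      ((bt_lk _ (l 5 (by norm_num))).2.1 z5)
    rw [← v3]
    exact (bt_lk _ (l 3 (by norm_num))).2.2.2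
  have hen := enum_spec (w := wl x) H.en hlk
  have hgy : get T [jn 0 (vl (x 0)), x 1, x 2, jn (zl (x 3)) Y, x 4, x 5] = .l (pv T y) := by
    have := (H.leaf hy).1
    unfold wl at this
    rw [y0, y1, y2, y3, y4, y5] at this
    exact this
  have hge : (get T [x 1, x 2, x 3, x 4, x 5, x 0]).val = pv T e := by
    unfold pv wl
    rw [he 0 (by norm_num), he 1 (by norm_num), he 2 (by norm_num), he 3 (by norm_num),
      he 4 (by norm_num), he 5 (by norm_num)]
  have h1 : lkf T nf m Y [x 5, x 4, x 3, x 2, x 1, x 0] = true := hen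
  have h2 : exd m (pv T y) (pv T e) nf = true := by
    have h3 : (match get T [jn 0 (vl (x 0)), x 1, x 2, jn (zl (x 3)) Y, x 4, x 5] with
      | .l y => exd m y (get T [x 1, x 2, x 3, x 4, x 5, x 0]).val nf
      | _ => true) = true := h1
    rw [hgy, hge] at h3
    exact h3
  obtain ⟨i, hi, h4, h5⟩ := exd_spec h2
  have h6 := H.path hp i hi
  omega

end Vale.Agent.P032.Words.Trie
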