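import Vale.Agent.P032.Words.H151.Beta

/-!
# Counts of the changes along a path of a BETA pair
-/

namespace Vale.Agent.P032.Words.Trie

/-- unit weights -/
def ei (i : ℕ) : List ℕ := (List.range 8).map fun j => cond (Nat.beq j i) 1 0

/-- paths with the eight counts (`Ae, Cf, Af, Ce, Pd, Qf, Pf, Qd`) -/
inductive PathC : (ℕ → ℕ) → (ℕ → ℕ) → (ℕ → ℕ) → Prop
  | refl (h : ℕ → ℕ) : PathC h (fun _ => 0) h
  | tail {h g g' c c' : ℕ → ℕ} : PathC h c g → StepB g g' →
      (∀ i < 8, c' i = c i + costW (ei i) g g') → PathC h c' g'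

/-- weighted sum of the counts -/
def dot (w : List ℕ) (c : ℕ → ℕ) : ℕ :=
  w.getD 0 0 * c 0 + w.getD 1 0 * c 1 + w.getD 2 0 * c 2 + w.getD 3 0 * c 3 +
  w.getD 4 0 * c 4 + w.getD 5 0 * c 5 + w.getD 6 0 * c 6 + w.getD 7 0 * c 7

theorem zc_dot (w : List ℕ) (a b : ℕ) : zc w a b = dot w (fun i => zc (ei i) a b) := by
  unfold zc dot
  cases ((Nat.beq a 2 && Nat.beq b 0) || (Nat.beq a 0 && Nat.beq b 2)) <;>
  cases ((Nat.beq a 3 && Nat.beq b 1) || (Nat.beq a 1 && Nat.beq b 3)) <;>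
  cases ((Nat.beq a 2 && Nat.beq b 1) || (Nat.beq a 1 && Nat.beq b 2)) <;>
  cases ((Nat.beq a 3 && Nat.beq b 0) || (Nat.beq a 0 && Nat.beq b 3)) <;>
  simp [ei, Nat.beq]

theorem vc_dot (w : List ℕ) (a b : ℕ) : vc w a b = dot w (fun i => vc (ei i) a b) := by
  unfold vc dot
  cases ((Nat.beq a 2 && Nat.beq b 0) || (Nat.beq a 0 && Nat.beq b 2)) <;>
  cases ((Nat.beq a 3 && Nat.beq b 1) || (Nat.beq a 1 && Nat.beq b 3)) <;>
  cases ((Nat.beq a 2 && Nat.beq b 1) || (Nat.beq a 1 && Nat.beq b 2)) <;>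
  cases ((Nat.beq a 3 && Nat.beq b 0) || (Nat.beq a 0 && Nat.beq b 3)) <;>
  simp [ei, Nat.beq]

theorem dot_add (w : List ℕ) (c d : ℕ → ℕ) : dot w (fun i => c i + d i) = dot w c + dot w d := by
  unfold dot
  ring

theorem dot_congr (w : List ℕ) {c d : ℕ → ℕ} (h : ∀ i < 8, c i = d i) : dot w c = dot w d := by
  unfold dot
  rw [h 0 (by norm_num), h 1 (by norm_num), h 2 (by norm_num), h 3 (by norm_num),
    h 4 (by norm_num), h 5 (by norm_num), h 6 (by norm_num), h 7 (by norm_num)]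

theorem cost_dot (w : List ℕ) (a b : ℕ) : cost w a b = dot w (fun i => cost (ei i) a b) := by
  show zc w (zl a) (zl b) + vc w (vl a) (vl b) = dot w (fun i => zc (ei i) (zl a) (zl b) +
    vc (ei i) (vl a) (vl b))
  rw [dot_add, ← zc_dot, ← vc_dot]

theorem costW_dot (w : List ℕ) (h g : ℕ → ℕ) : costW w h g = dot w (fun i => costW (ei i) h g) := by
  unfold costW
  rw [dot_add, dot_add, dot_add, dot_add, dot_add, ← cost_dot, ← cost_dot, ← cost_dot, ← cost_dot,
    ← cost_dot, ← cost_dot]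

theorem PathC.toB {h g c : ℕ → ℕ} (hp : PathC h c g) (w : List ℕ) : PathB w h (dot w c) g := by
  induction hp with
  | refl =>
    have : dot w (fun _ => 0) = 0 := by simp [dot]
    rw [this]
    exact .refl _
  | tail _ hs hc ih =>
    have h1 := PathB.tail ih hs
    have h2 : dot w _ = _ := dot_congr w hc
    rw [h2, dot_add, ← costW_dot]
    exact h1

/-- the special instant of a BETA pair: `x` is the word right before, `y` the word right after it, `e` is
`x` seen from the next position; `X`, `Y` are the letters of the second circle at position `3` before and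
after -/
structure LinkB (X Y : ℕ) (x y e : ℕ → ℕ) : Prop where
  hx : LegB x
  hy : LegB y
  z0 : zl (x 0) = 2
  z1 : zl (x 1) = 1
  z5 : zl (x 5) = 1
  v2 : vl (x 2) = 1
  v4 : vl (x 4) = 1
  v3 : vl (x 3) = X
  y0 : y 0 = jn 0 (vl (x 0))
  y3 : y 3 = jn (zl (x 3)) Y
  y1 : y 1 = x 1
  y2 : y 2 = x 2
  y4 : y 4 = x 4
  y5 : y 5 = x 5
  he : ∀ k < 6, e k = x ((k + 1) % 6)

theorem LinkB.le {X Y : ℕ} {x y e : ℕ → ℕ} (L : LinkB X Y x y e) {w : List ℕ} {nf m : ℕ} {T : Tr}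
    (hc : chk w nf m X Y T = true) {c : ℕ → ℕ} (hp : PathC y c e) : m ≤ dot w c :=
  beta_table hc L.hx L.hy L.z0 L.z1 L.z5 L.v2 L.v4 L.v3 L.y0 L.y3 L.y1 L.y2 L.y4 L.y5 L.he
    (hp.toB w)

end Vale.Agent.P032.Words.Trie
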