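import Vale.Agent.P032.Words.H151.BetaCnt
import Vale.Agent.P032.Words.H151.BetaF1
import Vale.Agent.P032.Words.H151.BetaF2
import Vale.Agent.P032.Words.H151.BetaF4
import Vale.Agent.P032.Words.H151.BetaF5
import Vale.Agent.P032.Words.H151.BetaF7
import Vale.Agent.P032.Words.H151.BetaF8
import Vale.Agent.P032.Words.H151.BetaF9
import Vale.Agent.P032.Words.H151.BetaN2
import Vale.Agent.P032.Words.H151.BetaN4
import Vale.Agent.P032.Words.H151.BetaN5
import Vale.Agent.P032.Words.H151.BetaN6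
import Vale.Agent.P032.Words.H151.BetaN7
import Vale.Agent.P032.Words.H151.BetaN8
import Vale.Agent.P032.Words.H151.BetaN9

/-!
# The tables of a BETA pair

`c 0, .., c 7` are the numbers of the changes `A|e, C|f, A|f, C|e` (first circle) and
`P|d, Q|f, P|f, Q|d` (second circle) during one step of sixty degrees between the special instant and
the next special instant (seen one position later).
-/

namespace Vale.Agent.P032.Words.Trie

theorem near1 {x y e c : ℕ → ℕ} (L : LinkB 0 2 x y e) (hp : PathC y c e) :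
    3 ≤ c 2 + c 5 + c 6 := by
  have h := L.le BetaN7.chk hp
  simp only [dot, List.getD_cons_zero, List.getD_cons_succ] at h
  omega

theorem near2 {x y e c : ℕ → ℕ} (L : LinkB 0 2 x y e) (hp : PathC y c e) :
    6 ≤ 3 * c 0 + c 1 + c 3 + 2 * c 5 := by
  have h := L.le BetaN5.chk hp
  simp only [dot, List.getD_cons_zero, List.getD_cons_succ] at h
  omega

theorem near3 {x y e c : ℕ → ℕ} (L : LinkB 0 2 x y e) (hp : PathC y c e) :
    11 ≤ 2 * c 0 + 2 * c 2 + c 6 + 3 * c 7 := by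
  have h := L.le BetaN4.chk hp
  simp only [dot, List.getD_cons_zero, List.getD_cons_succ] at h
  omega

theorem near4 {x y e c : ℕ → ℕ} (L : LinkB 0 2 x y e) (hp : PathC y c e) :
    9 ≤ 3 * c 0 + 3 * c 3 + 2 * c 4 := by
  have h := L.le BetaN2.chk hp
  simp only [dot, List.getD_cons_zero, List.getD_cons_succ] at h
  omega

theorem near5 {x y e c : ℕ → ℕ} (L : LinkB 0 2 x y e) (hp : PathC y c e) :
    6 ≤ c 1 + 2 * c 6 + c 7 := by
  have h := L.le BetaN6.chk hp
  simp only [dot, List.getD_cons_zero, List.getD_cons_succ] at h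
  omega

theorem near6 {x y e c : ℕ → ℕ} (L : LinkB 0 2 x y e) (hp : PathC y c e) :
    2 ≤ c 5 + c 6 := by
  have h := L.le BetaN8.chk hp
  simp only [dot, List.getD_cons_zero, List.getD_cons_succ] at h
  omega

theorem near7 {x y e c : ℕ → ℕ} (L : LinkB 0 2 x y e) (hp : PathC y c e) :
    1 ≤ c 1 + c 4 := by
  have h := L.le BetaN9.chk hp
  simp only [dot, List.getD_cons_zero, List.getD_cons_succ] at h
  omega

theorem far1 {x y e c : ℕ → ℕ} (L : LinkB 2 0 x y e) (hp : PathC y c e) :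
    6 ≤ 3 * c 0 + c 1 + c 3 + 2 * c 5 := by
  have h := L.le BetaF5.chk hp
  simp only [dot, List.getD_cons_zero, List.getD_cons_succ] at h
  omega

theorem far2 {x y e c : ℕ → ℕ} (L : LinkB 2 0 x y e) (hp : PathC y c e) :
    11 ≤ 2 * c 0 + 2 * c 2 + c 6 + 3 * c 7 := by
  have h := L.le BetaF2.chk hp
  simp only [dot, List.getD_cons_zero, List.getD_cons_succ] at h
  omega

theorem far3 {x y e c : ℕ → ℕ} (L : LinkB 2 0 x y e) (hp : PathC y c e) :
    7 ≤ c 0 + 2 * c 1 + c 4 + c 6 := by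
  have h := L.le BetaF4.chk hp
  simp only [dot, List.getD_cons_zero, List.getD_cons_succ] at h
  omega

theorem far4 {x y e c : ℕ → ℕ} (L : LinkB 2 0 x y e) (hp : PathC y c e) :
    2 ≤ c 0 + c 7 := by
  have h := L.le BetaF1.chk hp
  simp only [dot, List.getD_cons_zero, List.getD_cons_succ] at h
  omega

theorem far5 {x y e c : ℕ → ℕ} (L : LinkB 2 0 x y e) (hp : PathC y c e) :
    6 ≤ c 3 + 2 * c 6 + c 7 := by
  have h := L.le BetaF7.chk hp
  simp only [dot, List.getD_cons_zero, List.getD_cons_succ] at h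
  omega

theorem far6 {x y e c : ℕ → ℕ} (L : LinkB 2 0 x y e) (hp : PathC y c e) :
    2 ≤ c 5 + c 6 := by
  have h := L.le BetaF8.chk hp
  simp only [dot, List.getD_cons_zero, List.getD_cons_succ] at h
  omega

theorem far7 {x y e c : ℕ → ℕ} (L : LinkB 2 0 x y e) (hp : PathC y c e) :
    1 ≤ c 1 + c 4 := by
  have h := L.le BetaF9.chk hp
  simp only [dot, List.getD_cons_zero, List.getD_cons_succ] at h
  omega

/-- near special end (`d` before, `P` after) -/
theorem near_table {x y e c : ℕ → ℕ} (L : LinkB 0 2 x y e) (hp : PathC y c e) :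
    3 ≤ c 2 + c 5 + c 6 ∧
    6 ≤ 3 * c 0 + c 1 + c 3 + 2 * c 5 ∧
    11 ≤ 2 * c 0 + 2 * c 2 + c 6 + 3 * c 7 ∧
    9 ≤ 3 * c 0 + 3 * c 3 + 2 * c 4 ∧
    6 ≤ c 1 + 2 * c 6 + c 7 ∧
    2 ≤ c 5 + c 6 ∧
    1 ≤ c 1 + c 4 :=
  ⟨near1 L hp, near2 L hp, near3 L hp, near4 L hp, near5 L hp, near6 L hp, near7 L hp⟩

/-- far special end (`P` before, `d` after) -/
theorem far_table {x y e c : ℕ → ℕ} (L : LinkB 2 0 x y e) (hp : PathC y c e) :
    6 ≤ 3 * c 0 + c 1 + c 3 + 2 * c 5 ∧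
    11 ≤ 2 * c 0 + 2 * c 2 + c 6 + 3 * c 7 ∧
    7 ≤ c 0 + 2 * c 1 + c 4 + c 6 ∧
    2 ≤ c 0 + c 7 ∧
    6 ≤ c 3 + 2 * c 6 + c 7 ∧
    2 ≤ c 5 + c 6 ∧
    1 ≤ c 1 + c 4 :=
  ⟨far1 L hp, far2 L hp, far3 L hp, far4 L hp, far5 L hp, far6 L hp, far7 L hp⟩

end Vale.Agent.P032.Words.Trie
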