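import Mathlib

/-!
# Sets of words as big natural numbers

A word with `D` letters `h 0, .., h (D-1) < B` has the code `∑ h k * B ^ k`; a set of words is a natural
number whose bits are the codes.  Everything below is evaluated by the kernel with its fast operations
on natural numbers.
-/

namespace Vale.Agent.P032.Words.Bits

/-- code of the first `k` letters -/
def code (B : ℕ) (h : ℕ → ℕ) : ℕ → ℕ
  | 0 => 0
  | k + 1 => code B h k + h k * B ^ k

/-- union of shifted copies -/
def lp (A : ℕ → Bool) (X L : ℕ) : ℕ → ℕ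
  | 0 => 0
  | a + 1 => bif A a then (X <<< (a * L)) ||| lp A X L a else lp A X L a

/-- all words with `k` letters which are allowed by `A` -/
def cyl (B : ℕ) (A : ℕ → ℕ → Bool) : ℕ → ℕ
  | 0 => 1
  | k + 1 => lp (A k) (cyl B A k) (B ^ k) B

/-- words with letter `a` at position `k` -/
def msk (B D k a : ℕ) : ℕ := cyl B (fun j b => !(j == k) || (b == a)) D

theorem code_lt {B : ℕ} {h : ℕ → ℕ} : ∀ {k : ℕ}, (∀ j < k, h j < B) → code B h k < B ^ k
  | 0, _ => by simp [code]
  | k + 1, hk => by
    have h1 : code B h k < B ^ k := code_lt fun j hj => hk j (by omega)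
    have h2 := hk k (by omega)
    have h3 : h k * B ^ k ≤ (B - 1) * B ^ k := Nat.mul_le_mul_right _ (by omega)
    have h4 : (B - 1) * B ^ k + B ^ k = B ^ (k + 1) := by
      rw [pow_succ]
      obtain ⟨b, rfl⟩ : ∃ b, B = b + 1 := ⟨B - 1, by omega⟩
      simp only [Nat.add_sub_cancel]
      ring
    show code B h k + h k * B ^ k < B ^ (k + 1)
    omega

theorem lp_testBit {A : ℕ → Bool} {X L : ℕ} (hX : ∀ n, L ≤ n → X.testBit n = false) (hL : 0 < L) :
    ∀ (b n : ℕ), (lp A X L b).testBit n = (decide (n / L < b) && A (n / L) && X.testBit (n % L))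
  | 0, n => by simp [lp]
  | b + 1, n => by
    have ih := lp_testBit (A := A) hX hL b n
    have key : (X <<< (b * L)).testBit n = (decide (n / L = b) && X.testBit (n % L)) := by
      rw [Nat.testBit_shiftLeft]
      by_cases h1 : b * L ≤ n
      · rw [decide_eq_true h1, Bool.true_and]
        by_cases h2 : n / L = b
        · rw [decide_eq_true h2, Bool.true_and]
          congr 1
          have := Nat.div_add_mod n L
          rw [h2] at this
          rw [mul_comm] at this
          omega
        · rw [decide_eq_false h2, Bool.false_and]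
          apply hX
          have h3 : b < n / L := by
            have : b ≤ n / L := (Nat.le_div_iff_mul_le hL).2 h1
            omega
          have h4 : (b + 1) * L ≤ n := (Nat.le_div_iff_mul_le hL).1 h3
          have : (b + 1) * L = b * L + L := by ring
          omega
      · rw [decide_eq_false h1, Bool.false_and]
        have h2 : n / L ≠ b := by
          intro h
          apply h1
          rw [← h]
          exact Nat.div_mul_le_self n L
        rw [decide_eq_false h2, Bool.false_and]
    unfold lp
    cases hA : A b with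
    | false =>
      simp only [cond_false]
      rw [ih]
      by_cases h2 : n / L = b
      · rw [h2, hA]; simp
      · have : (n / L < b + 1) ↔ (n / L < b) := by omega
        simp [this]
    | true =>
      simp only [cond_true]
      rw [Nat.testBit_or, ih, key]
      by_cases h2 : n / L = b
      · rw [h2, hA]; simp
      · have : (n / L < b + 1) ↔ (n / L < b) := by omega
        simp [this, h2]

theorem cyl_zero_of_le {B : ℕ} (hB : 0 < B) {A : ℕ → ℕ → Bool} :
    ∀ (k n : ℕ), B ^ k ≤ n → (cyl B A k).testBit n = false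
  | 0, n, hn => by
    simp only [pow_zero] at hn
    show (1 : ℕ).testBit n = false
    cases h : (1 : ℕ).testBit n with
    | false => rfl
    | true => rw [Nat.testBit_one_eq_true_iff_self_eq_zero] at h; omega
  | k + 1, n, hn => by
    show (lp (A k) (cyl B A k) (B ^ k) B).testBit n = false
    rw [lp_testBit (cyl_zero_of_le hB k) (by positivity)]
    have : ¬ n / B ^ k < B := by
      rw [not_lt, Nat.le_div_iff_mul_le (by positivity)]
      rw [pow_succ] at hn
      linarith [mul_comm B (B ^ k)]
    simp [this]

theorem cyl_testBit {B : ℕ} {A : ℕ → ℕ → Bool} {h : ℕ → ℕ} :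
    ∀ {k : ℕ}, (∀ j < k, h j < B) →
      ((cyl B A k).testBit (code B h k) = true ↔ ∀ j < k, A j (h j) = true)
  | 0, _ => by simp [cyl, code]
  | k + 1, hk => by
    have hB : 0 < B := lt_of_le_of_lt (Nat.zero_le _) (hk k (by omega))
    have h1 : code B h k < B ^ k := code_lt fun j hj => hk j (by omega)
    have h2 : (code B h k + h k * B ^ k) / B ^ k = h k := by
      rw [Nat.add_mul_div_right _ _ (by positivity), Nat.div_eq_of_lt h1, zero_add]
    have h3 : (code B h k + h k * B ^ k) % B ^ k = code B h k := by
      rw [Nat.add_mul_mod_self_right, Nat.mod_eq_of_lt h1]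
    show (lp (A k) (cyl B A k) (B ^ k) B).testBit (code B h k + h k * B ^ k) = true ↔ _
    rw [lp_testBit (cyl_zero_of_le hB k) (by positivity), h2, h3]
    have h4 := hk k (by omega)
    rw [decide_eq_true h4, Bool.true_and, Bool.and_eq_true,
      cyl_testBit fun j hj => hk j (by omega)]
    constructor
    · rintro ⟨h5, h6⟩ j hj
      rcases Nat.lt_succ_iff_lt_or_eq.1 hj with h | rfl
      · exact h6 j h
      · exact h5
    · intro h5
      exact ⟨h5 k (by omega), fun j hj => h5 j (by omega)⟩

theorem msk_testBit {B D k a : ℕ} {h : ℕ → ℕ} (hh : ∀ j < D, h j < B) (hk : k < D) :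
    (msk B D k a).testBit (code B h D) = true ↔ h k = a := by
  unfold msk
  rw [cyl_testBit hh]
  constructor
  · intro h1
    have := h1 k hk
    simpa using this
  · intro h1 j _
    by_cases hj : j = k
    · subst hj; simp [h1]
    · simp [hj]

/-- code after a change of the letter at position `k` -/
theorem code_update {B k b : ℕ} {h : ℕ → ℕ} : ∀ {D : ℕ}, k < D →
    code B (Function.update h k b) D + h k * B ^ k = code B h D + b * B ^ k := by
  have hlow : ∀ D, D ≤ k → code B (Function.update h k b) D = code B h D := by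
    intro D
    induction D with
    | zero => intro _; rfl
    | succ D ih =>
      intro hD
      show code B (Function.update h k b) D + Function.update h k b D * B ^ D = _
      rw [ih (by omega), Function.update_of_ne (by omega)]
      rfl
  intro D
  induction D with
  | zero => intro h; omega
  | succ D ih =>
    intro hD
    by_cases hk : k = D
    · subst hk
      show code B (Function.update h k b) k + Function.update h k b k * B ^ k + h k * B ^ k
        = code B h k + h k * B ^ k + b * B ^ k
      rw [hlow k le_rfl, Function.update_self]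
      ring
    · have := ih (by omega)
      show code B (Function.update h k b) D + Function.update h k b D * B ^ D + h k * B ^ k
        = code B h D + h D * B ^ D + b * B ^ k
      rw [Function.update_of_ne (by omega : D ≠ k)]
      linarith

/-! ### Legal words -/

/-- union over the letters -/
def orA (f : ℕ → ℕ) : ℕ → ℕ
  | 0 => 0
  | a + 1 => f a ||| orA f a

theorem orA_mem {f : ℕ → ℕ} {a n : ℕ} (h : (f a).testBit n = true) :
    ∀ {b : ℕ}, a < b → (orA f b).testBit n = true
  | 0, hb => by omega
  | b + 1, hb => by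
    show (f b ||| orA f b).testBit n = true
    rw [Nat.testBit_or]
    rcases Nat.lt_succ_iff_lt_or_eq.1 hb with h1 | rfl
    · rw [orA_mem h h1, Bool.or_true]
    · rw [h, Bool.true_or]

/-- a rule for the letters at two positions -/
abbrev Con := ℕ × ℕ × (ℕ → ℕ → Bool)

/-- the words which satisfy a rule -/
def relSet (B D : ℕ) (c : Con) : ℕ :=
  orA (fun a => msk B D c.1 a &&& orA (fun b => bif c.2.2 a b then msk B D c.2.1 b else 0) B) B

/-- the words which satisfy all rules -/
def legal (B D : ℕ) : List Con → ℕ
  | [] => cyl B (fun _ _ => true) D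
  | c :: l => relSet B D c &&& legal B D l

/-- legal words -/
structure Leg (B D : ℕ) (cs : List Con) (h : ℕ → ℕ) : Prop where
  lt : ∀ j < D, h j < B
  rel : ∀ c ∈ cs, c.2.2 (h c.1) (h c.2.1) = true

/-- the positions of the rules -/
def InD (D : ℕ) (cs : List Con) : Prop := ∀ c ∈ cs, c.1 < D ∧ c.2.1 < D

theorem relSet_mem {B D : ℕ} {c : Con} {h : ℕ → ℕ} (hh : ∀ j < D, h j < B) (h1 : c.1 < D)
    (h2 : c.2.1 < D) (hc : c.2.2 (h c.1) (h c.2.1) = true) :
    (relSet B D c).testBit (code B h D) = true := by
  refine orA_mem (a := h c.1) ?_ (hh _ h1)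
  rw [Nat.testBit_and, (msk_testBit hh h1).2 rfl, Bool.true_and]
  refine orA_mem (a := h c.2.1) ?_ (hh _ h2)
  rw [hc, cond_true]
  exact (msk_testBit hh h2).2 rfl

theorem legal_mem {B D : ℕ} {h : ℕ → ℕ} : ∀ {cs : List Con}, InD D cs → Leg B D cs h →
    (legal B D cs).testBit (code B h D) = true
  | [], _, hL => (cyl_testBit hL.lt).2 fun _ _ => rfl
  | c :: cs, hD, hL => by
    show (relSet B D c &&& legal B D cs).testBit (code B h D) = true
    rw [Nat.testBit_and, relSet_mem hL.lt (hD c List.mem_cons_self).1 (hD c List.mem_cons_self).2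
      (hL.rel c List.mem_cons_self), legal_mem (cs := cs)
      (fun d hd => hD d (List.mem_cons_of_mem _ hd))
      ⟨hL.lt, fun d hd => hL.rel d (List.mem_cons_of_mem _ hd)⟩]
    rfl

/-! ### Labels -/

/-- the label of a code, given by bit planes -/
def labOf : List ℕ → ℕ → ℕ
  | [], _ => 0
  | X :: P, n => (X.testBit n).toNat + 2 * labOf P n

theorem labOf_lt (n : ℕ) : ∀ P : List ℕ, labOf P n < 2 ^ P.length
  | [] => by simp [labOf]
  | X :: P => by
    have := labOf_lt n P
    show (X.testBit n).toNat + 2 * labOf P n < 2 ^ (P.length + 1)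
    have h1 : (X.testBit n).toNat ≤ 1 := Bool.toNat_le _
    rw [pow_succ]
    omega

/-- the planes do not change under the shift by `s`, on the set `C` -/
def chkPl (C s : ℕ) : List ℕ → Bool
  | [] => true
  | X :: P => Nat.beq ((X ^^^ (X >>> s)) &&& C) 0 && chkPl C s P

theorem chkPl_spec {C s n : ℕ} (hC : C.testBit n = true) : ∀ {P : List ℕ}, chkPl C s P = true →
    labOf P n = labOf P (n + s)
  | [], _ => rfl
  | X :: P, h => by
    have h' : (Nat.beq ((X ^^^ (X >>> s)) &&& C) 0 && chkPl C s P) = true := h
    rw [Bool.and_eq_true] at h'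
    obtain ⟨h1, h2⟩ := h'
    have h3 : ((X ^^^ (X >>> s)) &&& C) = 0 := Nat.eq_of_beq_eq_true h1
    have h4 : ((X ^^^ (X >>> s)) &&& C).testBit n = false := by rw [h3, Nat.zero_testBit]
    rw [Nat.testBit_and, hC, Bool.and_true, Nat.testBit_xor, Nat.testBit_shiftRight] at h4
    have h5 : X.testBit n = X.testBit (n + s) := by
      rw [add_comm n s]
      cases h6 : X.testBit n <;> cases h7 : X.testBit (s + n) <;> simp_all
    show (X.testBit n).toNat + 2 * labOf P n = (X.testBit (n + s)).toNat + 2 * labOf P (n + s)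
    rw [h5, chkPl_spec hC h2]

/-- bounded universal quantifier -/
def allN (f : ℕ → Bool) : ℕ → Bool
  | 0 => true
  | a + 1 => f a && allN f a

theorem allN_spec {f : ℕ → Bool} {a : ℕ} : ∀ {b : ℕ}, allN f b = true → a < b → f a = true
  | 0, _, hb => by omega
  | b + 1, h, hb => by
    have h' : (f b && allN f b) = true := h
    rw [Bool.and_eq_true] at h'
    rcases Nat.lt_succ_iff_lt_or_eq.1 hb with h1 | rfl
    · exact allN_spec h'.2 h1
    · exact h'.1

/-- the labels are invariant under the free moves -/
def chkFree (B D Lg : ℕ) (P : List ℕ) (free : ℕ → ℕ → ℕ → Bool) : Bool :=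
  allN (fun k => allN (fun b => allN (fun a => !(free k a b) ||
    chkPl ((Lg &&& msk B D k a) &&& (Lg >>> ((b - a) * B ^ k))) ((b - a) * B ^ k) P) b) B) D

theorem code_update_lt {B D k a b : ℕ} {h : ℕ → ℕ} (hk : k < D) (ha : h k = a) (hab : a < b) :
    code B (Function.update h k b) D = code B h D + (b - a) * B ^ k := by
  have h1 := code_update (B := B) (b := b) (h := h) hk
  rw [ha] at h1
  have h2 : (b - a) * B ^ k + a * B ^ k = b * B ^ k := by
    rw [← add_mul]; congr 1; omega
  omega

/-- **Invariance of the labels.** -/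
theorem lab_update {B D Lg : ℕ} {P : List ℕ} {free : ℕ → ℕ → ℕ → Bool}
    (hc : chkFree B D Lg P free = true) {h : ℕ → ℕ} {k a b : ℕ} (hh : ∀ j < D, h j < B)
    (hk : k < D) (ha : h k = a) (hab : a < b) (hb : b < B) (hf : free k a b = true)
    (h1 : Lg.testBit (code B h D) = true)
    (h2 : Lg.testBit (code B (Function.update h k b) D) = true) :
    labOf P (code B (Function.update h k b) D) = labOf P (code B h D) := by
  have h3 := allN_spec (f := fun a => !(free k a b) ||
    chkPl ((Lg &&& msk B D k a) &&& (Lg >>> ((b - a) * B ^ k))) ((b - a) * B ^ k) P)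
    (allN_spec (f := fun b => allN (fun a => !(free k a b) ||
    chkPl ((Lg &&& msk B D k a) &&& (Lg >>> ((b - a) * B ^ k))) ((b - a) * B ^ k) P) b)
    (allN_spec (f := fun k => allN (fun b => allN (fun a => !(free k a b) ||
    chkPl ((Lg &&& msk B D k a) &&& (Lg >>> ((b - a) * B ^ k))) ((b - a) * B ^ k) P) b) B)
    hc hk) hb) hab
  rw [hf, Bool.not_true, Bool.false_or] at h3
  rw [code_update_lt hk ha hab] at h2 ⊢
  refine (chkPl_spec ?_ h3).symm
  rw [Nat.testBit_and, Nat.testBit_and, h1, (msk_testBit hh hk).2 ha, Nat.testBit_shiftRight,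
    add_comm, h2]
  rfl

/-- the part of `F` with label `i` -/
def setOf (F : ℕ) : List ℕ → ℕ → ℕ
  | [], _ => F
  | X :: P, i => bif i.testBit 0 then setOf (F &&& X) P (i / 2) else
      setOf (F ^^^ (F &&& X)) P (i / 2)

theorem setOf_spec {n : ℕ} : ∀ {P : List ℕ} {F i : ℕ}, i < 2 ^ P.length →
    ((setOf F P i).testBit n = true ↔ F.testBit n = true ∧ labOf P n = i)
  | [], F, i, hi => by
    have : i = 0 := by simpa using hi
    subst this
    simp [setOf, labOf]
  | X :: P, F, i, hi => by
    have hi2 : i / 2 < 2 ^ P.length := by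
      rw [List.length_cons, pow_succ] at hi
      omega
    have hlab : labOf (X :: P) n = (X.testBit n).toNat + 2 * labOf P n := rfl
    have hbit : i.testBit 0 = decide (i % 2 = 1) := Nat.testBit_zero i
    unfold setOf
    rw [hlab, hbit]
    by_cases h1 : i % 2 = 1
    · rw [decide_eq_true h1, cond_true, setOf_spec hi2, Nat.testBit_and, Bool.and_eq_true]
      cases hX : X.testBit n with
      | true =>
        simp only [Bool.toNat_true, and_true]
        constructor
        · rintro ⟨h2, h3⟩; exact ⟨h2, by omega⟩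
        · rintro ⟨h2, h3⟩; exact ⟨h2, by omega⟩
      | false =>
        simp only [Bool.toNat_false]
        constructor
        · rintro ⟨⟨h2, h3⟩, h4⟩; exact absurd h3 (by simp)
        · rintro ⟨h2, h3⟩; omega
    · rw [decide_eq_false h1, cond_false, setOf_spec hi2, Nat.testBit_xor, Nat.testBit_and]
      cases hX : X.testBit n with
      | true =>
        simp only [Bool.toNat_true, Bool.and_true, Bool.xor_self]
        constructor
        · rintro ⟨h2, h4⟩; exact absurd h2 (by simp)
        · rintro ⟨h2, h3⟩; omega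
      | false =>
        simp only [Bool.toNat_false, Bool.and_false, Bool.xor_false]
        constructor
        · rintro ⟨h2, h3⟩; exact ⟨h2, by omega⟩
        · rintro ⟨h2, h3⟩; exact ⟨h2, by omega⟩

/-- every element of `T` has its pair of labels in the list `R` -/
def chkRel (P Q : List ℕ) : List (ℕ × ℕ) → ℕ → Bool
  | [], T => Nat.beq T 0
  | r :: R, T => chkRel P Q R (T ^^^ setOf (setOf T P r.1) Q r.2)

theorem chkRel_spec {P Q : List ℕ} {n : ℕ} : ∀ {R : List (ℕ × ℕ)} {T : ℕ},
    (∀ r ∈ R, r.1 < 2 ^ P.length ∧ r.2 < 2 ^ Q.length) → chkRel P Q R T = true →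
    T.testBit n = true → (labOf P n, labOf Q n) ∈ R
  | [], T, _, h, hT => by
    have h' : Nat.beq T 0 = true := h
    rw [Nat.eq_of_beq_eq_true h', Nat.zero_testBit] at hT
    exact absurd hT (by simp)
  | r :: R, T, hR, h, hT => by
    have hr := hR r List.mem_cons_self
    have hs : (setOf (setOf T P r.1) Q r.2).testBit n = true ↔
        (T.testBit n = true ∧ labOf P n = r.1) ∧ labOf Q n = r.2 := by
      rw [setOf_spec hr.2, setOf_spec hr.1]
    by_cases h1 : labOf P n = r.1 ∧ labOf Q n = r.2
    · rw [h1.1, h1.2]; exact List.mem_cons_self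
    · refine List.mem_cons_of_mem _ (chkRel_spec (fun s hs => hR s (List.mem_cons_of_mem _ hs))
        (h : chkRel P Q R (T ^^^ setOf (setOf T P r.1) Q r.2) = true) ?_)
      have h2 : (setOf (setOf T P r.1) Q r.2).testBit n = false := by
        cases h3 : (setOf (setOf T P r.1) Q r.2).testBit n with
        | false => rfl
        | true => exact absurd (hs.1 h3) (fun h4 => h1 ⟨h4.1.2, h4.2⟩)
      rw [Nat.testBit_xor, hT, h2]
      rfl

/-! ### Exchange of neighbouring letters, rotation -/

/-- exchange of the letters at the positions `k`, `k + 1` in a word -/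
def sw (k : ℕ) (h : ℕ → ℕ) : ℕ → ℕ := fun j => if j = k then h (k + 1) else if j = k + 1 then h k
  else h j

/-- exchange of the letters at the positions `k`, `k + 1` in a set of words -/
def swp (B D k X : ℕ) : ℕ :=
  orA (fun a => orA (fun b =>
    bif Nat.ble b a then (X &&& msk B D k a &&& msk B D (k + 1) b) <<< ((a - b) * (B ^ (k + 1) - B ^ k))
    else (X &&& msk B D k a &&& msk B D (k + 1) b) >>> ((b - a) * (B ^ (k + 1) - B ^ k))) B) B

theorem code_congr {B : ℕ} {h g : ℕ → ℕ} : ∀ {k : ℕ}, (∀ j < k, h j = g j) →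
    code B h k = code B g k
  | 0, _ => rfl
  | k + 1, hk => by
    show code B h k + h k * B ^ k = code B g k + g k * B ^ k
    rw [code_congr fun j hj => hk j (by omega), hk k (by omega)]

theorem code_sw {B k : ℕ} {h : ℕ → ℕ} : ∀ {D : ℕ}, k + 1 < D →
    code B (sw k h) D + h k * B ^ k + h (k + 1) * B ^ (k + 1)
      = code B h D + h (k + 1) * B ^ k + h k * B ^ (k + 1) := by
  intro D
  induction D with
  | zero => intro h; omega
  | succ D ih =>
    intro hD
    by_cases hk : D = k + 1
    · subst hk
      have h1 : code B (sw k h) k = code B h k := code_congr fun j hj => by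
        unfold sw; rw [if_neg (by omega), if_neg (by omega)]
      show code B (sw k h) k + sw k h k * B ^ k + sw k h (k + 1) * B ^ (k + 1) + h k * B ^ k
          + h (k + 1) * B ^ (k + 1)
        = code B h k + h k * B ^ k + h (k + 1) * B ^ (k + 1) + h (k + 1) * B ^ k
          + h k * B ^ (k + 1)
      have h2 : sw k h k = h (k + 1) := by unfold sw; rw [if_pos rfl]
      have h3 : sw k h (k + 1) = h k := by unfold sw; rw [if_neg (by omega), if_pos rfl]
      rw [h1, h2, h3]
      ring
    · have := ih (by omega)
      show code B (sw k h) D + sw k h D * B ^ D + h k * B ^ k + h (k + 1) * B ^ (k + 1)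
        = code B h D + h D * B ^ D + h (k + 1) * B ^ k + h k * B ^ (k + 1)
      have h2 : sw k h D = h D := by unfold sw; rw [if_neg (by omega), if_neg (by omega)]
      rw [h2]
      linarith

theorem swp_mem {B D k X : ℕ} {h : ℕ → ℕ} (hh : ∀ j < D, h j < B) (hk : k + 1 < D)
    (hX : X.testBit (code B h D) = true) : (swp B D k X).testBit (code B (sw k h) D) = true := by
  unfold swp
  refine orA_mem (a := h k) (b := B) ?_ (hh _ (by omega))
  refine orA_mem (a := h (k + 1)) (b := B) ?_ (hh _ hk)
  have hY : (X &&& msk B D k (h k) &&& msk B D (k + 1) (h (k + 1))).testBit (code B h D) = true := by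
    rw [Nat.testBit_and, Nat.testBit_and, hX, (msk_testBit hh (by omega)).2 rfl,
      (msk_testBit hh hk).2 rfl]
    rfl
  have hc := code_sw (B := B) (h := h) hk
  have hP : B ^ k ≤ B ^ (k + 1) := Nat.pow_le_pow_right
    (lt_of_le_of_lt (Nat.zero_le _) (hh 0 (by omega))) (by omega)
  cases hb : Nat.ble (h (k + 1)) (h k) with
  | true =>
    rw [cond_true, Nat.testBit_shiftLeft]
    have hle : h (k + 1) ≤ h k := Nat.le_of_ble_eq_true hb
    have hcode : code B (sw k h) D = code B h D + (h k - h (k + 1)) * (B ^ (k + 1) - B ^ k) := by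
      obtain ⟨d, hd⟩ := Nat.exists_eq_add_of_le hle
      obtain ⟨e, he⟩ := Nat.exists_eq_add_of_le hP
      rw [hd, he] at hc ⊢
      simp only [Nat.add_sub_cancel_left]
      nlinarith
    rw [hcode, decide_eq_true (by omega), Bool.true_and, Nat.add_sub_cancel]
    exact hY
  | false =>
    rw [cond_false, Nat.testBit_shiftRight]
    have hle : h k ≤ h (k + 1) := by
      by_contra hcon
      have := Nat.ble_eq_true_of_le (show h (k + 1) ≤ h k by omega)
      rw [this] at hb
      exact absurd hb (by simp)
    have hcode : (h (k + 1) - h k) * (B ^ (k + 1) - B ^ k) + code B (sw k h) D = code B h D := by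
      obtain ⟨d, hd⟩ := Nat.exists_eq_add_of_le hle
      obtain ⟨e, he⟩ := Nat.exists_eq_add_of_le hP
      rw [hd, he] at hc ⊢
      simp only [Nat.add_sub_cancel_left]
      nlinarith
    rw [hcode]
    exact hY

/-- the first letter moved to position `k` -/
def rotH : ℕ → (ℕ → ℕ) → ℕ → ℕ
  | 0, h => h
  | k + 1, h => sw k (rotH k h)

theorem rotH_apply {h : ℕ → ℕ} : ∀ (k j : ℕ), rotH k h j = if j < k then h (j + 1) else
    if j = k then h 0 else h j
  | 0, j => by
    show h j = _
    rw [if_neg (by omega)]
    split_ifs with h1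
    · rw [h1]
    · rfl
  | k + 1, j => by
    show sw k (rotH k h) j = _
    unfold sw
    simp only [rotH_apply k]
    split_ifs <;> first | rfl | omega | (congr 1; omega)

/-- the set of words whose rotation is in `X` -/
def rotAux (B D : ℕ) : ℕ → ℕ → ℕ
  | 0, X => X
  | k + 1, X => rotAux B D k (swp B D k X)

theorem sw_lt {B D k : ℕ} {h : ℕ → ℕ} (hh : ∀ j < D, h j < B) (hk : k + 1 < D) :
    ∀ j < D, sw k h j < B := by
  intro j hj
  unfold sw
  split_ifs with h1 h2
  · exact hh _ hk
  · exact hh _ (by omega)
  · exact hh _ hj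

theorem rotH_lt {B D : ℕ} {h : ℕ → ℕ} (hh : ∀ j < D, h j < B) :
    ∀ {k : ℕ}, k < D → ∀ j < D, rotH k h j < B
  | 0, _ => hh
  | k + 1, hk => sw_lt (rotH_lt hh (by omega)) hk

theorem sw_sw (k : ℕ) (h : ℕ → ℕ) : sw k (sw k h) = h := by
  funext j
  unfold sw
  by_cases h1 : j = k
  · subst h1
    rw [if_pos rfl, if_neg (by omega), if_pos rfl]
  · rw [if_neg h1]
    by_cases h2 : j = k + 1
    · subst h2
      rw [if_pos rfl, if_pos rfl]
    · rw [if_neg h2, if_neg h1, if_neg h2]

theorem rotAux_mem {B D : ℕ} {h : ℕ → ℕ} (hh : ∀ j < D, h j < B) : ∀ {k X : ℕ}, k < D →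
    X.testBit (code B (rotH k h) D) = true → (rotAux B D k X).testBit (code B h D) = true
  | 0, _, _, hX => hX
  | k + 1, X, hk, hX => by
    show (rotAux B D k (swp B D k X)).testBit (code B h D) = true
    refine rotAux_mem hh (by omega) ?_
    have h1 := swp_mem (k := k) (rotH_lt hh (k := k + 1) hk) hk hX
    have h2 : sw k (rotH (k + 1) h) = rotH k h := sw_sw k _
    rwa [h2] at h1

/-- the rotated planes; `F` = all words -/
def rotP (B D : ℕ) : List ℕ → List ℕ
  | [] => []
  | X :: P => rotAux B D (D - 1) X :: rotP B D P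

/-- the rotated planes and their complements are disjoint -/
def chkRot (B D F : ℕ) : List ℕ → Bool
  | [] => true
  | X :: P => Nat.beq (rotAux B D (D - 1) X &&& rotAux B D (D - 1) (F ^^^ (F &&& X))) 0 &&
      chkRot B D F P

/-- rotation of a word -/
def rot (D : ℕ) (h : ℕ → ℕ) : ℕ → ℕ := rotH (D - 1) h

theorem labOf_rot {B D F : ℕ} {h : ℕ → ℕ} (hD : 0 < D) (hh : ∀ j < D, h j < B)
    (hF : F.testBit (code B (rot D h) D) = true) : ∀ {P : List ℕ}, chkRot B D F P = true →
    labOf (rotP B D P) (code B h D) = labOf P (code B (rot D h) D)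
  | [], _ => rfl
  | X :: P, hc => by
    have hc' : (Nat.beq (rotAux B D (D - 1) X &&& rotAux B D (D - 1) (F ^^^ (F &&& X))) 0 &&
      chkRot B D F P) = true := hc
    rw [Bool.and_eq_true] at hc'
    obtain ⟨h1, h2⟩ := hc'
    have h3 := Nat.eq_of_beq_eq_true h1
    have h4 : (rotAux B D (D - 1) X).testBit (code B h D) = X.testBit (code B (rot D h) D) := by
      cases hX : X.testBit (code B (rot D h) D) with
      | true => exact rotAux_mem hh (by omega) hX
      | false =>
        have h5 : (rotAux B D (D - 1) (F ^^^ (F &&& X))).testBit (code B h D) = true := by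
          refine rotAux_mem hh (by omega) ?_
          show (F ^^^ (F &&& X)).testBit (code B (rot D h) D) = true
          rw [Nat.testBit_xor, Nat.testBit_and, hF, hX]
          rfl
        have h6 : (rotAux B D (D - 1) X &&& rotAux B D (D - 1) (F ^^^ (F &&& X))).testBit
            (code B h D) = false := by rw [h3, Nat.zero_testBit]
        rw [Nat.testBit_and, h5, Bool.and_true] at h6
        exact h6
    show ((rotAux B D (D - 1) X).testBit (code B h D)).toNat + 2 * labOf (rotP B D P) (code B h D)
      = (X.testBit (code B (rot D h) D)).toNat + 2 * labOf P (code B (rot D h) D)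
    rw [h4, labOf_rot hD hh hF h2]

/-! ### Computation of the labels -/

/-- the new words which are reached by the move `a → b` at position `k` -/
def mv (B D k a b X : ℕ) : ℕ :=
  bif Nat.ble a b then (X &&& msk B D k a) <<< ((b - a) * B ^ k)
  else (X &&& msk B D k a) >>> ((a - b) * B ^ k)

/-- evaluate a list of numbers -/
def force {α : Type} : List ℕ → (List ℕ → α) → α
  | [], f => f []
  | X :: P, f => force P fun P' => bif Nat.beq X 0 then f (0 :: P') else f (X :: P')

/-- one sweep through the moves -/
def sweep (B D Lg : ℕ) {α : Type} : List (ℕ × ℕ × ℕ) → ℕ → List ℕ → (ℕ → List ℕ → α) → α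
  | [], V, P, f => f V P
  | m :: M, V, P, f =>
    bif Nat.beq ((mv B D m.1 m.2.1 m.2.2 V &&& Lg) ^^^ ((mv B D m.1 m.2.1 m.2.2 V &&& Lg) &&& V)) 0
    then sweep B D Lg M V P f
    else force (P.map fun X => X ||| (mv B D m.1 m.2.1 m.2.2 X &&&
        ((mv B D m.1 m.2.1 m.2.2 V &&& Lg) ^^^ ((mv B D m.1 m.2.1 m.2.2 V &&& Lg) &&& V))))
      fun P' => sweep B D Lg M (V ||| (mv B D m.1 m.2.1 m.2.2 V &&& Lg)) P' f

/-- several sweeps -/
def sweeps (B D Lg : ℕ) (M : List (ℕ × ℕ × ℕ)) : ℕ → ℕ → List ℕ → List ℕ
  | 0, _, P => P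
  | n + 1, V, P => sweep B D Lg M V P fun V' P' => bif Nat.beq V' V then P' else
      sweeps B D Lg M n V' P'

/-- all free moves -/
def moves (B D : ℕ) (free : ℕ → ℕ → ℕ → Bool) : List (ℕ × ℕ × ℕ) :=
  (List.range D).flatMap fun k => (List.range B).flatMap fun a => (List.range B).filterMap fun b =>
    bif (Nat.blt a b && free k a b) || (Nat.blt b a && free k b a) then some (k, a, b) else none

/-- plane `j` of the seeds -/
def sdPlane (j : ℕ) : List ℕ → ℕ → ℕ
  | [], _ => 0
  | s :: l, i => (bif i.testBit j then 1 <<< s else 0) ||| sdPlane j l (i + 1)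

/-- all seeds -/
def sdAll : List ℕ → ℕ
  | [] => 0
  | s :: l => (1 <<< s) ||| sdAll l

/-- the planes; the seed number `i` (starting with `1`) gets the label `i` -/
def planes (B D J : ℕ) (Lg : ℕ) (free : ℕ → ℕ → ℕ → Bool) (seeds : List ℕ) (n : ℕ) : List ℕ :=
  sweeps B D Lg (moves B D free) n (sdAll seeds)
    ((List.range J).map fun j => sdPlane j seeds 1)

end Vale.Agent.P032.Words.Bits
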