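import Vale.Agent.P032.Words.H151.Bits

/-!
# Moves at several positions, weights and potentials

A move `m : GM` changes the letters at the positions `m.ch` (position, old letter, new letter) and
requires letters in given lists at the positions `m.ctx`.
-/

namespace Vale.Agent.P032.Words.Bits

/-- a move at several positions, with a context -/
structure GM where
  ch : List (ℕ × ℕ × ℕ)
  ctx : List (ℕ × List ℕ)

/-- source cylinder -/
def GM.src (m : GM) (j b : ℕ) : Bool :=
  m.ch.all (fun c => !(j == c.1) || (b == c.2.1)) && m.ctx.all (fun c => !(j == c.1) || c.2.contains b)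

/-- sum of the upward shifts -/
def GM.up (B : ℕ) (m : GM) : ℕ := (m.ch.map fun c => (c.2.2 - c.2.1) * B ^ c.1).sum

/-- sum of the downward shifts -/
def GM.dn (B : ℕ) (m : GM) : ℕ := (m.ch.map fun c => (c.2.1 - c.2.2) * B ^ c.1).sum

/-- the set `X` seen from the source of the move -/
def back (up dn X : ℕ) : ℕ := bif Nat.ble dn up then X >>> (up - dn) else X <<< (dn - up)

theorem back_testBit {up dn X n n' : ℕ} (h : n + up = n' + dn) :
    (back up dn X).testBit n = X.testBit n' := by
  unfold back
  cases hb : Nat.ble dn up with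
  | true =>
    have := Nat.le_of_ble_eq_true hb
    rw [cond_true, Nat.testBit_shiftRight]
    congr 1; omega
  | false =>
    have hlt : up < dn := by
      by_contra hcon
      have := Nat.ble_eq_true_of_le (not_lt.1 hcon)
      rw [this] at hb; exact absurd hb (by simp)
    rw [cond_false, Nat.testBit_shiftLeft, decide_eq_true (by omega), Bool.true_and]
    congr 1; omega

/-- result of the changes -/
def app : List (ℕ × ℕ × ℕ) → (ℕ → ℕ) → ℕ → ℕ
  | [], h => h
  | c :: l, h => app l (Function.update h c.1 c.2.2)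

/-- the changes can be made one after the other -/
def Fits : List (ℕ × ℕ × ℕ) → (ℕ → ℕ) → Prop
  | [], _ => True
  | c :: l, h => h c.1 = c.2.1 ∧ Fits l (Function.update h c.1 c.2.2)

theorem code_app {B D : ℕ} : ∀ {l : List (ℕ × ℕ × ℕ)} {h : ℕ → ℕ}, (∀ c ∈ l, c.1 < D) → Fits l h →
    code B h D + (l.map fun c => (c.2.2 - c.2.1) * B ^ c.1).sum
      = code B (app l h) D + (l.map fun c => (c.2.1 - c.2.2) * B ^ c.1).sum
  | [], _, _, _ => rfl
  | c :: l, h, hD, hF => by
    have ih := code_app (B := B) (l := l) (h := Function.update h c.1 c.2.2)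
      (fun d hd => hD d (List.mem_cons_of_mem _ hd)) hF.2
    have h1 := code_update (B := B) (b := c.2.2) (h := h) (hD c List.mem_cons_self)
    rw [hF.1] at h1
    simp only [List.map_cons, List.sum_cons, app]
    have h2 : (c.2.2 - c.2.1) * B ^ c.1 + c.2.1 * B ^ c.1
        = c.2.2 * B ^ c.1 + (c.2.1 - c.2.2) * B ^ c.1 := by
      rw [← add_mul, ← add_mul]; congr 1; omega
    omega

/-- the planes of `P` and `Q` agree on `C` -/
def eqPl (C : ℕ) : List ℕ → List ℕ → Bool
  | [], [] => true
  | X :: P, Y :: Q => Nat.beq ((X ^^^ Y) &&& C) 0 && eqPl C P Q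
  | _, _ => false

theorem eqPl_spec {C n : ℕ} (hC : C.testBit n = true) : ∀ {P Q : List ℕ}, eqPl C P Q = true →
    labOf P n = labOf Q n
  | [], [], _ => rfl
  | [], Y :: Q, h => absurd h (by simp [eqPl])
  | X :: P, [], h => absurd h (by simp [eqPl])
  | X :: P, Y :: Q, h => by
    have h' : (Nat.beq ((X ^^^ Y) &&& C) 0 && eqPl C P Q) = true := h
    rw [Bool.and_eq_true] at h'
    obtain ⟨h1, h2⟩ := h'
    have h4 : ((X ^^^ Y) &&& C).testBit n = false := by
      rw [Nat.eq_of_beq_eq_true h1, Nat.zero_testBit]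
    rw [Nat.testBit_and, hC, Bool.and_true, Nat.testBit_xor] at h4
    have h5 : X.testBit n = Y.testBit n := by
      cases h6 : X.testBit n <;> cases h7 : Y.testBit n <;> simp_all
    show (X.testBit n).toNat + 2 * labOf P n = (Y.testBit n).toNat + 2 * labOf Q n
    rw [h5, eqPl_spec hC h2]

theorem labOf_back {up dn n n' : ℕ} (h : n + up = n' + dn) : ∀ P : List ℕ,
    labOf (P.map (back up dn)) n = labOf P n'
  | [] => rfl
  | X :: P => by
    show ((back up dn X).testBit n).toNat + 2 * labOf (P.map (back up dn)) n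
      = (X.testBit n').toNat + 2 * labOf P n'
    rw [back_testBit h, labOf_back h P]

/-- domain of a move between legal words -/
def GM.dom (B D Lg : ℕ) (m : GM) : ℕ :=
  cyl B m.src D &&& (Lg &&& back (m.up B) (m.dn B) Lg)

/-- a word fits to a move -/
structure GM.Ok (D : ℕ) (m : GM) (h : ℕ → ℕ) : Prop where
  pos : ∀ c ∈ m.ch, c.1 < D
  old : ∀ c ∈ m.ch, h c.1 = c.2.1
  fits : Fits m.ch h
  ctx : ∀ c ∈ m.ctx, c.2.contains (h c.1) = true

theorem GM.dom_mem {B D Lg : ℕ} {m : GM} {h : ℕ → ℕ} (hh : ∀ j < D, h j < B) (hm : m.Ok D h)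
    (h1 : Lg.testBit (code B h D) = true) (h2 : Lg.testBit (code B (app m.ch h) D) = true) :
    (m.dom B D Lg).testBit (code B h D) = true := by
  have hc : code B h D + m.up B = code B (app m.ch h) D + m.dn B := code_app hm.pos hm.fits
  unfold GM.dom
  rw [Nat.testBit_and, Nat.testBit_and, h1, back_testBit hc, h2, Bool.and_true, Bool.and_true,
    cyl_testBit hh]
  intro j _
  unfold GM.src
  rw [Bool.and_eq_true, List.all_eq_true, List.all_eq_true]
  constructor
  · intro c hcm
    by_cases hj : j = c.1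
    · subst hj
      rw [hm.old c hcm]; simp
    · simp [hj]
  · intro c hcm
    by_cases hj : j = c.1
    · subst hj
      rw [hm.ctx c hcm]; simp
    · simp [hj]

/-- the labels do not change under the move -/
def GM.chk0 (B D Lg : ℕ) (P : List ℕ) (m : GM) : Bool :=
  eqPl (m.dom B D Lg) P (P.map (back (m.up B) (m.dn B)))

theorem GM.chk0_spec {B D Lg : ℕ} {P : List ℕ} {m : GM} (hc : m.chk0 B D Lg P = true) {h : ℕ → ℕ}
    (hh : ∀ j < D, h j < B) (hm : m.Ok D h) (h1 : Lg.testBit (code B h D) = true)
    (h2 : Lg.testBit (code B (app m.ch h) D) = true) :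
    labOf P (code B (app m.ch h) D) = labOf P (code B h D) := by
  have hcd : code B h D + m.up B = code B (app m.ch h) D + m.dn B := code_app hm.pos hm.fits
  rw [eqPl_spec (GM.dom_mem hh hm h1 h2) hc, labOf_back hcd]

/-- the pairs of labels along the move are in `R` -/
def GM.chkR (B D Lg : ℕ) (P : List ℕ) (R : List (ℕ × ℕ)) (m : GM) : Bool :=
  chkRel P (P.map (back (m.up B) (m.dn B))) R (m.dom B D Lg)

theorem GM.chkR_spec {B D Lg : ℕ} {P : List ℕ} {m : GM} {R : List (ℕ × ℕ)}
    (hR : ∀ r ∈ R, r.1 < 2 ^ P.length ∧ r.2 < 2 ^ P.length)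
    (hc : m.chkR B D Lg P R = true) {h : ℕ → ℕ}
    (hh : ∀ j < D, h j < B) (hm : m.Ok D h) (h1 : Lg.testBit (code B h D) = true)
    (h2 : Lg.testBit (code B (app m.ch h) D) = true) :
    (labOf P (code B h D), labOf P (code B (app m.ch h) D)) ∈ R := by
  have hcd : code B h D + m.up B = code B (app m.ch h) D + m.dn B := code_app hm.pos hm.fits
  have := chkRel_spec (Q := P.map (back (m.up B) (m.dn B)))
    (fun r hr => by rw [List.length_map]; exact hR r hr) hc (GM.dom_mem hh hm h1 h2)
  rwa [labOf_back hcd] at this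

end Vale.Agent.P032.Words.Bits
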