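import Vale.Agent.P032.Words.H151.Bits2

/-!
# Labels for general moves, closed words
-/

namespace Vale.Agent.P032.Words.Bits

/-- a move as numbers: source set, upward and downward shift -/
def GM.nums (B D : ℕ) (m : GM) : ℕ × ℕ × ℕ := (cyl B m.src D, m.up B, m.dn B)

/-- image of `X` under a move -/
def fwd (t : ℕ × ℕ × ℕ) (X : ℕ) : ℕ :=
  bif Nat.ble t.2.2 t.2.1 then (X &&& t.1) <<< (t.2.1 - t.2.2) else (X &&& t.1) >>> (t.2.2 - t.2.1)

/-- evaluate a list of triples -/
def forceT {α : Type} : List (ℕ × ℕ × ℕ) → (List (ℕ × ℕ × ℕ) → α) → α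
  | [], f => f []
  | t :: P, f => forceT P fun P' =>
    bif Nat.beq t.1 0 then f P' else bif Nat.beq t.2.1 t.2.2 then f (t :: P') else f (t :: P')

/-- one sweep -/
def sweepT (Lg : ℕ) {α : Type} : List (ℕ × ℕ × ℕ) → ℕ → List ℕ → (ℕ → List ℕ → α) → α
  | [], V, P, f => f V P
  | m :: M, V, P, f =>
    bif Nat.beq ((fwd m V &&& Lg) ^^^ ((fwd m V &&& Lg) &&& V)) 0
    then sweepT Lg M V P f
    else force (P.map fun X => X ||| (fwd m X &&& ((fwd m V &&& Lg) ^^^ ((fwd m V &&& Lg) &&& V))))
      fun P' => sweepT Lg M (V ||| (fwd m V &&& Lg)) P' f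

/-- several sweeps -/
def sweepsT (Lg : ℕ) (M : List (ℕ × ℕ × ℕ)) : ℕ → ℕ → List ℕ → List ℕ
  | 0, _, P => P
  | n + 1, V, P => sweepT Lg M V P fun V' P' => bif Nat.beq V' V then P' else
      sweepsT Lg M n V' P'

/-- the planes for general moves (both directions have to be in the list) -/
def planesG (B D J : ℕ) (Lg : ℕ) (ms : List GM) (seeds : List ℕ) (n : ℕ) : List ℕ :=
  forceT (ms.map (GM.nums B D)) fun M => sweepsT Lg M n (sdAll seeds)
    ((List.range J).map fun j => sdPlane j seeds 1)

/-- all moves of the list keep the labels -/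
def chkAll (B D Lg : ℕ) (P : List ℕ) : List GM → Bool
  | [] => true
  | m :: ms => m.chk0 B D Lg P && chkAll B D Lg P ms

theorem chkAll_spec {B D Lg : ℕ} {P : List ℕ} : ∀ {ms : List GM}, chkAll B D Lg P ms = true →
    ∀ m ∈ ms, m.chk0 B D Lg P = true
  | [], _, m, hm => absurd hm (by simp)
  | a :: ms, h, m, hm => by
    have h' : (a.chk0 B D Lg P && chkAll B D Lg P ms) = true := h
    rw [Bool.and_eq_true] at h'
    rcases List.mem_cons.1 hm with rfl | hm
    · exact h'.1
    · exact chkAll_spec h'.2 m hm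

/-- the part of `S` where the planes of `P` and `Q` agree -/
def agr : ℕ → List ℕ → List ℕ → ℕ
  | S, [], _ => S
  | S, _, [] => S
  | S, X :: P, Y :: Q => agr (S ^^^ (S &&& (X ^^^ Y))) P Q

theorem agr_spec {n : ℕ} : ∀ {P Q : List ℕ} {S : ℕ}, P.length = Q.length → S.testBit n = true →
    labOf P n = labOf Q n → (agr S P Q).testBit n = true
  | [], _, S, _, hS, _ => by unfold agr; exact hS
  | X :: P, [], S, hl, _, _ => absurd hl (by simp)
  | X :: P, Y :: Q, S, hl, hS, h => by
    have h' : (X.testBit n).toNat + 2 * labOf P n = (Y.testBit n).toNat + 2 * labOf Q n := h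
    have h1 : (X.testBit n).toNat ≤ 1 := Bool.toNat_le _
    have h2 : (Y.testBit n).toNat ≤ 1 := Bool.toNat_le _
    have h3 : (X.testBit n).toNat = (Y.testBit n).toNat := by omega
    have h4 : X.testBit n = Y.testBit n := by
      cases h5 : X.testBit n <;> cases h6 : Y.testBit n <;> simp_all
    show (agr (S ^^^ (S &&& (X ^^^ Y))) P Q).testBit n = true
    refine agr_spec (by simpa using hl) ?_ (by omega)
    rw [Nat.testBit_xor, Nat.testBit_and, Nat.testBit_xor, hS, h4, Bool.xor_self]
    rfl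

theorem rotP_length (B D : ℕ) : ∀ P : List ℕ, (rotP B D P).length = P.length
  | [] => rfl
  | X :: P => by
    show (rotAux B D (D - 1) X :: rotP B D P).length = (X :: P).length
    rw [List.length_cons, List.length_cons, rotP_length B D P]

/-- **No label is fixed by the rotation.** -/
theorem lab_rot_ne {B D Lg F : ℕ} {P : List ℕ} (hD : 0 < D) (h0 : Nat.beq (agr Lg P (rotP B D P)) 0 = true)
    (hr : chkRot B D F P = true) {h : ℕ → ℕ} (hh : ∀ j < D, h j < B)
    (h1 : Lg.testBit (code B h D) = true) (hF : F.testBit (code B (rot D h) D) = true) :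
    labOf P (code B (rot D h) D) ≠ labOf P (code B h D) := by
  intro he
  have h2 := agr_spec (P := P) (Q := rotP B D P) (rotP_length B D P).symm h1
    (by rw [labOf_rot hD hh hF hr, he])
  rw [Nat.eq_of_beq_eq_true h0, Nat.zero_testBit] at h2
  exact absurd h2 (by simp)

end Vale.Agent.P032.Words.Bits
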