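import Vale.Agent.P032.Words.H151.Six6

/-!
# Words of a six-coloured centre: the graph ad ae af bd be bf cd ce
-/

namespace Vale.Agent.P032.Words.Bits.K33m

/-- the letters (bit masks of pairs of colours) -/
def L : List ℕ := [9, 17, 33, 10, 18, 34, 12, 20]

/-- one word in every component (272 components, 2236 words) -/
def seeds : List ℕ := [133152, 165920, 231456, 141344, 239648, 157728, 190496, 133664, 166432, 231968, 158240, 134688,
167456, 232992, 142880, 169632, 140960, 239264, 231584, 242592, 156576, 189344, 166304, 165928,
157736, 133672, 166440, 158248, 191016, 169576, 140904, 189352, 166824, 250344, 193000, 231480,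
141368, 134712, 233016, 142904, 241208, 239288, 233144, 242424, 156408, 250232, 192888, 104025,
169561, 202329, 108121, 206425, 128601, 194137, 166489, 105049, 203353, 129625, 105561, 171097,
203865, 109657, 202393, 108185, 166041, 213465, 127449, 169945, 108585, 105001, 128617, 170601,
195177, 218025, 170985, 202353, 108145, 105585, 203889, 207985, 206513, 203953, 213297, 127281,
217457, 189297, 108122, 133722, 105562, 104090, 108186, 206490, 133274, 203930, 109722, 233114,
243162, 108578, 104994, 134690, 141474, 239778, 143010, 214434, 203890, 109682, 108210, 208050,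
242994, 156978, 233018, 110138, 141498, 241338, 214266, 128250, 45771, 78539, 242379, 53963,
250571, 58059, 90827, 46283, 79051, 242891, 58571, 233163, 48843, 81611, 57035, 82251, 53579,
242507, 78731, 58251, 231819, 78547, 58067, 46291, 79059, 91347, 82195, 53523, 91027, 79251,
94675, 239571, 59451, 48699, 95931, 54011, 245499, 253691, 245627, 16644, 82180, 213252, 20740,
217348, 28932, 94468, 79108, 17668, 214276, 29956, 204036, 19716, 85252, 23812, 213316, 20804,
78660, 82372, 29124, 202692, 21204, 17620, 28948, 83220, 95508, 207252, 83412, 30324, 19572,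
92340, 20788, 216372, 220468, 216436, 20741, 19717, 16709, 20805, 217413, 45893, 204101, 23877,
233285, 232389, 21197, 48845, 54093, 250701, 57165, 203661, 60021, 23669, 216373, 20853, 220533,
31293, 24125, 245501, 54141, 253821, 58062, 46286, 134862, 171342, 45966, 58254, 91022, 79246,
58766, 133518, 166798, 79062, 58582, 171286, 142614, 58262, 91542, 59430, 133670, 48678, 85158,
158118, 190886, 158630, 166446, 59950, 85102, 56430, 158126, 191406, 28935, 17671, 167751, 16839,
29127, 94663, 79303, 30151, 104391, 166855, 29911, 110295, 83223, 29143, 95703, 30303, 105055,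
81567, 128991, 194527, 130015, 31279, 24111, 170607, 129007, 195567]

theorem chk : chk6 L seeds 9 60 = true := by decide +kernel

/-- the words over this graph have no closed path -/
theorem table : ∃ cmp : (ℕ → ℕ) → ℕ, (∀ h, Leg L.length 6 (cs6 L) h → cmp (rot 6 h) ≠ cmp h) ∧
    ∀ h k b, k < 6 → Leg L.length 6 (cs6 L) h → Leg L.length 6 (cs6 L) (Function.update h k b) →
      mt (L.getD (h k) 0) (L.getD b 0) = true →
      mt (L.getD (h ((k + 3) % 6)) 0) (L.getD (h k) 0 ||| L.getD b 0) = true →
      cmp (Function.update h k b) = cmp h := six_table chk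

end Vale.Agent.P032.Words.Bits.K33m
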