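import Vale.Agent.P032.Words.H151.Trie

/-!
# Words with six letters which are constant below every palette tuple

Letters `0 .. A-1` (`A ≤ 10`), palettes `0 .. N-1`; everything is given by lists of masks: `nb`, `op` for the
letters (neighbours, antipodes), `nbT`, `opT` for the palettes, `PL` the letters of the palettes.
-/

namespace Vale.Agent.P032.Words.Trie

/-- the masks of the remaining positions after the choice `a` -/
def upG (nb op : List ℕ) (a : ℕ) : List ℕ → List ℕ
  | [m1, m2, m3, m4, m5] => [Nat.land m1 (nb.getD a 0), m2, Nat.land m3 (op.getD a 0), m4,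
      Nat.land m5 (nb.getD a 0)]
  | [m1, m2, m3, m4] => [Nat.land m1 (nb.getD a 0), m2, Nat.land m3 (op.getD a 0), m4]
  | [m1, m2, m3] => [Nat.land m1 (nb.getD a 0), m2, Nat.land m3 (op.getD a 0)]
  | [m1, m2] => [Nat.land m1 (nb.getD a 0), m2]
  | [m1] => [Nat.land m1 (nb.getD a 0)]
  | _ => []

/-- relation given by masks -/
def rel (M : List ℕ) (a b : ℕ) : Prop := bt (M.getD a 0) b = true

instance {M : List ℕ} {a b : ℕ} : Decidable (rel M a b) := inferInstanceAs (Decidable (_ = true))

/-- cyclic words of length six over `0 .. A-1` with conditions on neighbours and antipodes -/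
structure Leg6 (A : ℕ) (nb op : List ℕ) (h : ℕ → ℕ) : Prop where
  lt : ∀ k < 6, h k < A
  n0 : rel nb (h 0) (h 1)
  n1 : rel nb (h 1) (h 2)
  n2 : rel nb (h 2) (h 3)
  n3 : rel nb (h 3) (h 4)
  n4 : rel nb (h 4) (h 5)
  n5 : rel nb (h 5) (h 0)
  o0 : rel op (h 0) (h 3)
  o1 : rel op (h 1) (h 4)
  o2 : rel op (h 2) (h 5)

/-- the word as a list -/
def w6 (h : ℕ → ℕ) : List ℕ := [h 0, h 1, h 2, h 3, h 4, h 5]

/-- admissible words for a state, alphabet of size `A` -/
def AdmG (A : ℕ) (up : ℕ → List ℕ → List ℕ) : List ℕ → List ℕ → Prop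
  | [], [] => True
  | m :: ms, a :: w => a < A ∧ bt m a = true ∧ AdmG A up (up a ms) w
  | _, _ => False

/-- symmetric matrix of masks -/
def symM (A : ℕ) (M : List ℕ) : Bool :=
  (List.range A).all fun a => (List.range A).all fun b =>
    cond (bt (M.getD a 0) b) (bt (M.getD b 0) a) true

theorem symM_spec {A : ℕ} {M : List ℕ} (h : symM A M = true) {a b : ℕ} (ha : a < A) (hb : b < A)
    (hr : rel M a b) : rel M b a := by
  have h1 := List.all_eq_true.1 h a (List.mem_range.2 ha)
  have h2 := List.all_eq_true.1 h1 b (List.mem_range.2 hb)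
  unfold rel at hr ⊢
  rw [hr, cond_true] at h2
  exact h2

theorem Leg6.adm {A : ℕ} {nb op : List ℕ} (hs : symM A nb = true) {h : ℕ → ℕ}
    (hL : Leg6 A nb op h) {m0 m1 m2 m3 m4 m5 : ℕ} (b0 : bt m0 (h 0) = true)
    (b1 : bt m1 (h 1) = true) (b2 : bt m2 (h 2) = true) (b3 : bt m3 (h 3) = true)
    (b4 : bt m4 (h 4) = true) (b5 : bt m5 (h 5) = true) :
    AdmG A (upG nb op) [m0, m1, m2, m3, m4, m5] (w6 h) := by
  have l := hL.lt
  have n0 : bt (nb.getD (h 0) 0) (h 1) = true := hL.n0
  have n1 : bt (nb.getD (h 1) 0) (h 2) = true := hL.n1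
  have n2 : bt (nb.getD (h 2) 0) (h 3) = true := hL.n2
  have n3 : bt (nb.getD (h 3) 0) (h 4) = true := hL.n3
  have n4 : bt (nb.getD (h 4) 0) (h 5) = true := hL.n4
  have n5 : bt (nb.getD (h 0) 0) (h 5) = true :=
    symM_spec hs (l 5 (by norm_num)) (l 0 (by norm_num)) hL.n5
  have o0 : bt (op.getD (h 0) 0) (h 3) = true := hL.o0
  have o1 : bt (op.getD (h 1) 0) (h 4) = true := hL.o1
  have o2 : bt (op.getD (h 2) 0) (h 5) = true := hL.o2
  refine ⟨l 0 (by norm_num), b0, l 1 (by norm_num), ?_, l 2 (by norm_num), ?_, l 3 (by norm_num), ?_,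
    l 4 (by norm_num), ?_, l 5 (by norm_num), ?_, trivial⟩
  · rw [bt_land, b1, n0]; rfl
  · rw [bt_land, b2, n1]; rfl
  · rw [bt_land, bt_land, b3, n2, o0]; rfl
  · rw [bt_land, bt_land, b4, n3, o1]; rfl
  · rw [bt_land, bt_land, bt_land, b5, n4, n5, o2]; rfl

/-- all elements of the list with a bit in the mask satisfy `f` -/
noncomputable def allR (l : List ℕ) (f : ℕ → Bool) (m : ℕ) : Bool :=
  List.rec (motive := fun _ => Bool) true
    (fun a _ ih => cond (bt m a) (cond (f a) ih false) ih) l

theorem allR_spec {f : ℕ → Bool} {m : ℕ} : ∀ {l : List ℕ}, allR l f m = true → ∀ a ∈ l,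
    bt m a = true → f a = true
  | [], _, a, ha, _ => absurd ha (by simp)
  | b :: l, h, a, ha, hb => by
    have h' : cond (bt m b) (cond (f b) (allR l f m) false) (allR l f m) = true := h
    rcases List.mem_cons.1 ha with rfl | ha
    · rw [hb, cond_true] at h'
      cases hf : f a with
      | true => rfl
      | false => rw [hf] at h'; exact absurd h' (by simp)
    · refine allR_spec (l := l) ?_ a ha hb
      revert h'
      cases bt m b <;> cases f b <;> simp

/-- all admissible words are in the diagram -/
noncomputable def covG (l : List ℕ) (up : ℕ → List ℕ → List ℕ) (n : ℕ) : List ℕ → Tr → Bool :=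
  Nat.rec (motive := fun _ => List ℕ → Tr → Bool) (fun _ t => lfc (fun _ => true) t)
    (fun _ ih ms t => List.rec (motive := fun _ => Bool) false
      (fun m ms _ => allR l (fun a => fL (up a ms) fun ms' => ih ms' (ch t a)) m) ms) n

theorem covG_spec {A : ℕ} {up : ℕ → List ℕ → List ℕ} : ∀ {w ms : List ℕ} {t : Tr},
    covG (List.range A) up w.length ms t = true → AdmG A up ms w → ∃ v, get t w = .l v
  | [], ms, t, h, _ => by
    have h' : lfc (fun _ => true) t = true := h
    cases t with
    | e => exact absurd h' (by simp [lfc])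
    | l v => exact ⟨v, rfl⟩
    | c a s r => exact absurd h' (by simp [lfc])
  | a :: w, [], t, h, hA => absurd hA (by simp [AdmG])
  | a :: w, m :: ms, t, h, hA => by
    obtain ⟨h1, h2, h3⟩ := hA
    have h' : allR (List.range A) (fun a => fL (up a ms) fun ms' =>
      covG (List.range A) up w.length ms' (ch t a)) m = true := h
    have h4 := allR_spec h' a (List.mem_range.2 h1) h2
    rw [fL_eq] at h4
    exact covG_spec (w := w) h4 h3

/-! ### The rotation -/

/-- the word `a w` and the word `w a` have different leaves -/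
noncomputable def rw5 (a : ℕ) (n : ℕ) : Tr → Tr → Bool :=
  Nat.rec (motive := fun _ => Tr → Tr → Bool) (fun s t => lf2 (fun x y => cond (Nat.beq x y) false true)
    s (ch t a)) (fun _ ih s t => allC (fun b s' => ih s' (ch t b)) s) n

theorem rw5_spec {a : ℕ} : ∀ {w : List ℕ} {s t : Tr} {x y : ℕ}, rw5 a w.length s t = true →
    get s w = .l x → get t (w ++ [a]) = .l y → x ≠ y
  | [], s, t, x, y, h, hx, hy => by
    have hx : s = .l x := hx
    have hy : ch t a = .l y := hy
    have h' : lf2 (fun x y => cond (Nat.beq x y) false true) s (ch t a) = true := h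
    rw [hx, hy] at h'
    have h'' : cond (Nat.beq x y) false true = true := h'
    intro he
    rw [he, show Nat.beq y y = true from Nat.beq_refl y] at h''
    exact absurd h'' (by simp)
  | b :: w, s, t, x, y, h, hx, hy => by
    have h' : allC (fun b s' => rw5 a w.length s' (ch t b)) s = true := h
    have hx' : get (ch s b) w = .l x := hx
    have hne : ch s b ≠ .e := by
      intro he
      rw [he, get_e] at hx'
      cases hx'
    exact rw5_spec (w := w) (allC_spec h' hne) hx' hy

/-! ### Constant below the palettes -/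

/-- the children of `t` with the letters of a list, in front of a list -/
noncomputable def kids (t : Tr) (l : List ℕ) (S : List Tr) : List Tr :=
  List.rec (motive := fun _ => List Tr) S
    (fun a _ ih => Tr.rec (motive := fun _ => List Tr) ih (fun v => .l v :: ih)
      (fun b s r _ _ => .c b s r :: ih) (ch t a)) l

theorem mem_kids_old {t : Tr} {S : List Tr} {s : Tr} (hs : s ∈ S) : ∀ {l : List ℕ},
    s ∈ kids t l S
  | [] => hs
  | a :: l => by
    have ih := mem_kids_old (t := t) hs (l := l)
    show s ∈ Tr.rec (motive := fun _ => List Tr) (kids t l S) (fun v => .l v :: kids t l S)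
      (fun b s r _ _ => .c b s r :: kids t l S) (ch t a)
    cases ch t a with
    | e => exact ih
    | l v => exact List.mem_cons_of_mem _ ih
    | c b s' r => exact List.mem_cons_of_mem _ ih

theorem mem_kids {t : Tr} {S : List Tr} {a : ℕ} (hne : ch t a ≠ .e) : ∀ {l : List ℕ}, a ∈ l →
    ch t a ∈ kids t l S
  | [], h => absurd h (by simp)
  | b :: l, h => by
    show ch t a ∈ Tr.rec (motive := fun _ => List Tr) (kids t l S) (fun v => .l v :: kids t l S)
      (fun b s r _ _ => .c b s r :: kids t l S) (ch t b)
    rcases List.mem_cons.1 h with rfl | h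
    · cases hc : ch t a with
      | e => exact absurd hc hne
      | l v => exact List.mem_cons_self
      | c b s' r => exact List.mem_cons_self
    · have ih := mem_kids (S := S) hne h
      cases ch t b with
      | e => exact ih
      | l v => exact List.mem_cons_of_mem _ ih
      | c b s' r => exact List.mem_cons_of_mem _ ih

/-- the children of all members -/
noncomputable def kidsL (l : List ℕ) (S : List Tr) : List Tr :=
  List.rec (motive := fun _ => List Tr) [] (fun t _ ih => kids t l ih) S

theorem mem_kidsL {l : List ℕ} {a : ℕ} {t : Tr} (hne : ch t a ≠ .e) (ha : a ∈ l) :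
    ∀ {S : List Tr}, t ∈ S → ch t a ∈ kidsL l S
  | [], h => absurd h (by simp)
  | s :: S, h => by
    show ch t a ∈ kids s l (kidsL l S)
    rcases List.mem_cons.1 h with rfl | h
    · exact mem_kids hne ha
    · exact mem_kids_old (mem_kidsL hne ha h)

/-- two equal leaves -/
noncomputable def leq (s t : Tr) : Bool :=
  Tr.rec (motive := fun _ => Bool) false
    (fun x => Tr.rec (motive := fun _ => Bool) false (fun y => Nat.beq x y)
      (fun _ _ _ _ _ => false) t) (fun _ _ _ _ _ => false) s

theorem leq_spec {s : Tr} {y : ℕ} (h : leq s (.l y) = true) : s = .l y := by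
  cases s with
  | e => exact absurd h (by simp [leq])
  | l u =>
    have h' : Nat.beq u y = true := h
    rw [Nat.eq_of_beq_eq_true h']
  | c a t r => exact absurd h (by simp [leq])

/-- all leaves are the same as the first one -/
noncomputable def same1 (s : Tr) (S : List Tr) : Bool :=
  List.rec (motive := fun _ => Bool) true (fun t _ ih => cond (leq s t) ih false) S

theorem same1_spec {s : Tr} : ∀ {S : List Tr}, same1 s S = true → ∀ t ∈ S, leq s t = true
  | [], _, t, ht => absurd ht (by simp)
  | u :: S, h, t, ht => by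
    have h' : cond (leq s u) (same1 s S) false = true := h
    cases hu : leq s u with
    | false => rw [hu] at h'; exact absurd h' (by simp)
    | true =>
      rw [hu, cond_true] at h'
      rcases List.mem_cons.1 ht with rfl | ht
      · exact hu
      · exact same1_spec h' t ht

/-- all leaves are the same -/
noncomputable def same (S : List Tr) : Bool :=
  List.rec (motive := fun _ => Bool) true (fun s S _ => same1 s S) S

theorem same_spec {S : List Tr} (h : same S = true) {x y : ℕ} (hx : Tr.l x ∈ S) (hy : Tr.l y ∈ S) :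
    x = y := by
  cases S with
  | nil => exact absurd hx (by simp)
  | cons s S =>
    have h' : ∀ t ∈ S, leq s t = true := same1_spec h
    have key : ∀ z, Tr.l z ∈ s :: S → s = .l z := by
      intro z hz
      rcases List.mem_cons.1 hz with h1 | h1
      · exact h1.symm
      · exact leq_spec (h' _ h1)
    exact Tr.l.inj ((key x hx).symm.trans (key y hy))

/-- is the list empty -/
def isNil (S : List Tr) : Bool := List.rec (motive := fun _ => Bool) true (fun _ _ _ => false) S

/-- below every admissible palette tuple all leaves are the same; `l` = all palettes, `PL` their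
letters -/
noncomputable def cst (l : List ℕ) (PL : List (List ℕ)) (up : ℕ → List ℕ → List ℕ) (n : ℕ) :
    List ℕ → List Tr → Bool :=
  Nat.rec (motive := fun _ => List ℕ → List Tr → Bool) (fun _ S => same S)
    (fun _ ih ms S => List.rec (motive := fun _ => Bool) false
      (fun m ms _ => allR l (fun p => cond (isNil (kidsL (PL.getD p []) S)) true
        (fL (up p ms) fun ms' => ih ms' (kidsL (PL.getD p []) S))) m) ms) n

/-- `w` is below the palette tuple `v` -/
def Below (PL : List (List ℕ)) : List ℕ → List ℕ → Prop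
  | [], [] => True
  | p :: v, a :: w => a ∈ PL.getD p [] ∧ Below PL v w
  | _, _ => False

theorem cst_spec {N : ℕ} {PL : List (List ℕ)} {up : ℕ → List ℕ → List ℕ} :
    ∀ {v ms : List ℕ} {S : List Tr}, cst (List.range N) PL up v.length ms S = true →
      AdmG N up ms v → ∀ {w w' : List ℕ}, Below PL v w → Below PL v w' → ∀ {s s' : Tr}, s ∈ S →
        s' ∈ S → ∀ {x y : ℕ}, get s w = .l x → get s' w' = .l y → x = y
  | [], ms, S, h, hA, [], [], _, _, s, s', hs, hs', x, y, hx, hy => by
    have hx : s = .l x := hx
    have hy : s' = .l y := hy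
    subst hx hy
    exact same_spec h hs hs'
  | [], ms, S, h, hA, _ :: _, _, hw, _, _, _, _, _, _, _, _, _ => absurd hw (by simp [Below])
  | [], ms, S, h, hA, [], _ :: _, _, hw, _, _, _, _, _, _, _, _ => absurd hw (by simp [Below])
  | p :: v, [], S, h, hA, _, _, _, _, _, _, _, _, _, _, _, _ => absurd hA (by simp [AdmG])
  | p :: v, _ :: _, S, h, hA, [], _, hw, _, _, _, _, _, _, _, _, _ => absurd hw (by simp [Below])
  | p :: v, _ :: _, S, h, hA, _ :: _, [], _, hw, _, _, _, _, _, _, _, _ =>
    absurd hw (by simp [Below])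
  | p :: v, m :: ms, S, h, hA, a :: w, b :: w', hw, hw', s, s', hs, hs', x, y, hx, hy => by
    obtain ⟨h1, h2, h3⟩ := hA
    have h' : allR (List.range N) (fun p => cond (isNil (kidsL (PL.getD p []) S)) true
        (fL (up p ms) fun ms' => cst (List.range N) PL up v.length ms' (kidsL (PL.getD p []) S))) m
        = true := h
    have h4 := allR_spec h' p (List.mem_range.2 h1) h2
    have hx' : get (ch s a) w = .l x := hx
    have hy' : get (ch s' b) w' = .l y := hy
    have hne : ch s a ≠ .e := by
      intro he
      rw [he, get_e] at hx'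
      cases hx'
    have hne' : ch s' b ≠ .e := by
      intro he
      rw [he, get_e] at hy'
      cases hy'
    have k1 := mem_kidsL hne hw.1 hs
    have k2 := mem_kidsL hne' hw'.1 hs'
    have h5 : isNil (kidsL (PL.getD p []) S) = false := by
      cases hk : kidsL (PL.getD p []) S with
      | nil => rw [hk] at k1; exact absurd k1 (by simp)
      | cons _ _ => rfl
    rw [h5, cond_false, fL_eq] at h4
    exact cst_spec (v := v) h4 h3 hw.2 hw'.2 k1 k2 hx' hy'

/-! ### The table -/

/-- everything which has to be checked; `A` letters, `N` palettes -/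
noncomputable def chkP (A N : ℕ) (nb op nbT opT : List ℕ) (PL : List (List ℕ)) (T : Tr) : Bool :=
  cond (symM A nb) (cond (symM N nbT)
  (cond (covG (List.range A) (upG nb op) 6 [1023, 1023, 1023, 1023, 1023, 1023] T)
  (cond (allC (fun a s => rw5 a 5 s T) T)
  (cst (List.range N) PL (upG nbT opT) 6 [2 ^ 40 - 1, 2 ^ 40 - 1, 2 ^ 40 - 1, 2 ^ 40 - 1, 2 ^ 40 - 1,
    2 ^ 40 - 1] [T]) false) false) false) false

theorem bt_pow {n a : ℕ} (h : a < n) : bt (2 ^ n - 1) a = true := by
  rw [bt_eq, Nat.testBit_two_pow_sub_one]
  exact decide_eq_true h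

/-- one value per word: different for a word and its rotation, constant below every palette tuple -/
theorem pal_table {A N : ℕ} {nb op nbT opT : List ℕ} {PL : List (List ℕ)} {T : Tr} (hA : A ≤ 10)
    (hN : N ≤ 40) (h : chkP A N nb op nbT opT PL T = true) :
    ∃ cmp : (ℕ → ℕ) → ℕ,
      (∀ h g, Leg6 A nb op h → Leg6 A nb op g → (∀ k < 6, g k = h ((k + 1) % 6)) → cmp g ≠ cmp h) ∧
      ∀ t h g, Leg6 N nbT opT t → Leg6 A nb op h → Leg6 A nb op g →
        (∀ k < 6, h k ∈ PL.getD (t k) []) → (∀ k < 6, g k ∈ PL.getD (t k) []) → cmp h = cmp g := by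
  unfold chkP at h
  have hh := h
  cases e1 : symM A nb with
  | false => rw [e1] at hh; exact absurd hh (by simp)
  | true =>
  rw [e1, cond_true] at hh
  cases e2 : symM N nbT with
  | false => rw [e2] at hh; exact absurd hh (by simp)
  | true =>
  rw [e2, cond_true] at hh
  cases e3 : covG (List.range A) (upG nb op) 6 [1023, 1023, 1023, 1023, 1023, 1023] T with
  | false => rw [e3] at hh; exact absurd hh (by simp)
  | true =>
  rw [e3, cond_true] at hh
  cases e4 : allC (fun a s => rw5 a 5 s T) T with
  | false => rw [e4] at hh; exact absurd hh (by simp)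
  | true =>
  rw [e4, cond_true] at hh
  have hfin := hh
  clear hh
  have hleaf : ∀ h, Leg6 A nb op h → ∃ v, get T (w6 h) = .l v := by
    intro h hL
    have b : ∀ k < 6, bt 1023 (h k) = true := fun k hk =>
      bt_pow (n := 10) (lt_of_lt_of_le (hL.lt k hk) hA)
    exact covG_spec (w := w6 h) e3 (hL.adm e1 (b 0 (by norm_num)) (b 1 (by norm_num))
      (b 2 (by norm_num)) (b 3 (by norm_num)) (b 4 (by norm_num)) (b 5 (by norm_num)))
  refine ⟨fun h => match get T (w6 h) with | .l v => v | _ => 0, ?_, ?_⟩
  · intro h g hh hg he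
    obtain ⟨x, hx⟩ := hleaf h hh
    obtain ⟨y, hy⟩ := hleaf g hg
    have hx' : get (ch T (h 0)) [h 1, h 2, h 3, h 4, h 5] = .l x := hx
    have hy' : get T ([h 1, h 2, h 3, h 4, h 5] ++ [h 0]) = .l y := by
      have : w6 g = [h 1, h 2, h 3, h 4, h 5] ++ [h 0] := by
        unfold w6
        rw [he 0 (by norm_num), he 1 (by norm_num), he 2 (by norm_num), he 3 (by norm_num),
          he 4 (by norm_num), he 5 (by norm_num)]
        rfl
      rw [← this]; exact hy
    have hne : ch T (h 0) ≠ .e := by
      intro he
      rw [he, get_e] at hx'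
      cases hx'
    have h5 := allC_spec e4 hne
    have h6 := rw5_spec (w := [h 1, h 2, h 3, h 4, h 5]) h5 hx' hy'
    show (match get T (w6 g) with | .l v => v | _ => 0) ≠ (match get T (w6 h) with | .l v => v | _ => 0)
    rw [hx, hy]
    exact fun he => h6 he.symm
  · intro t h g ht hh hg hb hb'
    obtain ⟨x, hx⟩ := hleaf h hh
    obtain ⟨y, hy⟩ := hleaf g hg
    show (match get T (w6 h) with | .l v => v | _ => 0) = (match get T (w6 g) with | .l v => v | _ => 0)
    rw [hx, hy]
    have b : ∀ k < 6, bt (2 ^ 40 - 1) (t k) = true := fun k hk =>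
      bt_pow (n := 40) (lt_of_lt_of_le (ht.lt k hk) hN)
    have hadm := ht.adm e2 (b 0 (by norm_num)) (b 1 (by norm_num))
      (b 2 (by norm_num)) (b 3 (by norm_num)) (b 4 (by norm_num)) (b 5 (by norm_num))
    have B : ∀ f : ℕ → ℕ, (∀ k < 6, f k ∈ PL.getD (t k) []) → Below PL (w6 t) (w6 f) := fun f hf =>
      ⟨hf 0 (by norm_num), hf 1 (by norm_num), hf 2 (by norm_num), hf 3 (by norm_num),
        hf 4 (by norm_num), hf 5 (by norm_num), trivial⟩
    exact cst_spec (v := w6 t) hfin hadm (B h hb) (B g hb') List.mem_cons_self List.mem_cons_self hx hy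

end Vale.Agent.P032.Words.Trie
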