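import Vale.Agent.P032.Words.H151.Pal

/-!
# Box tables with ties

As `Pal`, with three additions: a condition `flt q p b a` on antipodal positions of a palette tuple (palettes
`q`, `p`) and of a word below it (letters `b`, `a`), an exclusion `exc` of palette tuples, and tie classes:
a palette tuple with a tie may change the value, every class is used at most once.
-/

namespace Vale.Agent.P032.Words.Trie

/-- at most two steps back -/
noncomputable def flt3 (flt : ℕ → ℕ → ℕ → ℕ → Bool) (th : List ℕ) (p : ℕ) (r : List ℕ) (a : ℕ) : Bool :=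
  match th, r with
  | _ :: _ :: q :: _, _ :: _ :: b :: _ => flt q p b a
  | _, _ => true

/-- the children of `t` with the letters of a list, in front of a list -/
noncomputable def kid2 (ok : ℕ → Bool) (r : List ℕ) (t : Tr) (l : List ℕ) (S : List (Tr × List ℕ)) :
    List (Tr × List ℕ) :=
  List.rec (motive := fun _ => List (Tr × List ℕ)) S
    (fun a _ ih => Tr.rec (motive := fun _ => List (Tr × List ℕ)) ih
      (fun v => cond (ok a) ((.l v, a :: r) :: ih) ih)
      (fun b s r' _ _ => cond (ok a) ((.c b s r', a :: r) :: ih) ih) (ch t a)) l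

theorem mem_kid2_old {ok : ℕ → Bool} {r : List ℕ} {t : Tr} {S : List (Tr × List ℕ)}
    {s : Tr × List ℕ} (hs : s ∈ S) : ∀ {l : List ℕ}, s ∈ kid2 ok r t l S
  | [] => hs
  | a :: l => by
    have ih := mem_kid2_old (ok := ok) (r := r) (t := t) hs (l := l)
    show s ∈ Tr.rec (motive := fun _ => List (Tr × List ℕ)) (kid2 ok r t l S)
      (fun v => cond (ok a) ((.l v, a :: r) :: kid2 ok r t l S) (kid2 ok r t l S))
      (fun b s r' _ _ => cond (ok a) ((.c b s r', a :: r) :: kid2 ok r t l S) (kid2 ok r t l S))
      (ch t a)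
    cases ch t a with
    | e => exact ih
    | l v => cases ok a with
      | true => exact List.mem_cons_of_mem _ ih
      | false => exact ih
    | c b s' r' => cases ok a with
      | true => exact List.mem_cons_of_mem _ ih
      | false => exact ih

theorem mem_kid2 {ok : ℕ → Bool} {r : List ℕ} {t : Tr} {S : List (Tr × List ℕ)} {a : ℕ}
    (hne : ch t a ≠ .e) (ho : ok a = true) : ∀ {l : List ℕ}, a ∈ l →
    (ch t a, a :: r) ∈ kid2 ok r t l S
  | [], h => absurd h (by simp)
  | b :: l, h => by
    show (ch t a, a :: r) ∈ Tr.rec (motive := fun _ => List (Tr × List ℕ)) (kid2 ok r t l S)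
      (fun v => cond (ok b) ((.l v, b :: r) :: kid2 ok r t l S) (kid2 ok r t l S))
      (fun b' s r' _ _ => cond (ok b) ((.c b' s r', b :: r) :: kid2 ok r t l S) (kid2 ok r t l S))
      (ch t b)
    rcases List.mem_cons.1 h with rfl | h
    · cases hc : ch t a with
      | e => exact absurd hc hne
      | l v =>
        show (Tr.l v, a :: r) ∈ cond (ok a) ((.l v, a :: r) :: kid2 ok r t l S) (kid2 ok r t l S)
        rw [ho]; exact List.mem_cons_self
      | c b s' r' =>
        show (Tr.c b s' r', a :: r) ∈ cond (ok a) ((.c b s' r', a :: r) :: kid2 ok r t l S)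
          (kid2 ok r t l S)
        rw [ho]; exact List.mem_cons_self
    · have ih := mem_kid2 (r := r) (S := S) hne ho h
      cases ch t b with
      | e => exact ih
      | l v => cases ok b with
        | true => exact List.mem_cons_of_mem _ ih
        | false => exact ih
      | c b' s' r' => cases ok b with
        | true => exact List.mem_cons_of_mem _ ih
        | false => exact ih

/-- the children of all members -/
noncomputable def kids2 (flt : ℕ → ℕ → ℕ → ℕ → Bool) (th : List ℕ) (p : ℕ) (l : List ℕ)
    (S : List (Tr × List ℕ)) : List (Tr × List ℕ) :=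
  List.rec (motive := fun _ => List (Tr × List ℕ)) []
    (fun t _ ih => kid2 (flt3 flt th p t.2) t.2 t.1 l ih) S

theorem mem_kids2 {flt : ℕ → ℕ → ℕ → ℕ → Bool} {th : List ℕ} {p : ℕ} {l : List ℕ} {a : ℕ}
    {t : Tr} {r : List ℕ} (hne : ch t a ≠ .e) (ho : flt3 flt th p r a = true) (ha : a ∈ l) :
    ∀ {S : List (Tr × List ℕ)}, (t, r) ∈ S → (ch t a, a :: r) ∈ kids2 flt th p l S
  | [], h => absurd h (by simp)
  | s :: S, h => by
    show (ch t a, a :: r) ∈ kid2 (flt3 flt th p s.2) s.2 s.1 l (kids2 flt th p l S)
    rcases List.mem_cons.1 h with rfl | h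
    · exact mem_kid2 hne ho ha
    · exact mem_kid2_old (mem_kids2 hne ho ha h)

/-- two leaves in relation -/
noncomputable def lrel (f : ℕ → ℕ → Bool) (s t : Tr) : Bool :=
  Tr.rec (motive := fun _ => Bool) true
    (fun x => Tr.rec (motive := fun _ => Bool) true (fun y => f x y) (fun _ _ _ _ _ => true) t)
    (fun _ _ _ _ _ => true) s

/-- all pairs are in relation -/
noncomputable def pairs (f : ℕ → ℕ → Bool) (S S' : List (Tr × List ℕ)) : Bool :=
  List.rec (motive := fun _ => Bool) true (fun s _ ih =>
    cond (List.rec (motive := fun _ => Bool) true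
      (fun t _ ih => cond (lrel f s.1 t.1) ih false) S') ih false) S

theorem pairs_aux {f : ℕ → ℕ → Bool} {s : Tr} : ∀ {S' : List (Tr × List ℕ)},
    List.rec (motive := fun _ => Bool) true
      (fun t _ ih => cond (lrel f s t.1) ih false) S' = true → ∀ t ∈ S', lrel f s t.1 = true
  | [], _, t, ht => absurd ht (by simp)
  | u :: S', h, t, ht => by
    have h' : cond (lrel f s u.1) (List.rec (motive := fun _ => Bool) true
      (fun t _ ih => cond (lrel f s t.1) ih false) S') false = true := h
    cases hu : lrel f s u.1 with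
    | false => rw [hu] at h'; exact absurd h' (by simp)
    | true =>
      rw [hu, cond_true] at h'
      rcases List.mem_cons.1 ht with rfl | ht
      · exact hu
      · exact pairs_aux h' t ht

theorem pairs_spec {f : ℕ → ℕ → Bool} {S' : List (Tr × List ℕ)} : ∀ {S : List (Tr × List ℕ)},
    pairs f S S' = true → ∀ s ∈ S, ∀ t ∈ S', lrel f s.1 t.1 = true
  | [], _, s, hs => absurd hs (by simp)
  | u :: S, h, s, hs => by
    have h' : cond (List.rec (motive := fun _ => Bool) true
      (fun t _ ih => cond (lrel f u.1 t.1) ih false) S') (pairs f S S') false = true := h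
    cases hu : (List.rec (motive := fun _ => Bool) true
      (fun t _ ih => cond (lrel f u.1 t.1) ih false) S' : Bool) with
    | false => rw [hu] at h'; exact absurd h' (by simp)
    | true =>
      rw [hu, cond_true] at h'
      rcases List.mem_cons.1 hs with rfl | hs
      · exact pairs_aux hu
      · exact pairs_spec h' s hs

/-- all leaves are the same as the first one -/
noncomputable def sam1 (s : Tr) (S : List (Tr × List ℕ)) : Bool :=
  List.rec (motive := fun _ => Bool) true (fun t _ ih => cond (leq s t.1) ih false) S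

theorem sam1_spec {s : Tr} : ∀ {S : List (Tr × List ℕ)}, sam1 s S = true → ∀ t ∈ S,
    leq s t.1 = true
  | [], _, t, ht => absurd ht (by simp)
  | u :: S, h, t, ht => by
    have h' : cond (leq s u.1) (sam1 s S) false = true := h
    cases hu : leq s u.1 with
    | false => rw [hu] at h'; exact absurd h' (by simp)
    | true =>
      rw [hu, cond_true] at h'
      rcases List.mem_cons.1 ht with rfl | ht
      · exact hu
      · exact sam1_spec h' t ht

/-- all leaves are the same -/
noncomputable def sam (S : List (Tr × List ℕ)) : Bool :=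
  List.rec (motive := fun _ => Bool) true (fun s S _ => sam1 s.1 S) S

theorem sam_spec {S : List (Tr × List ℕ)} (h : sam S = true) {x y : ℕ} {r r' : List ℕ}
    (hx : (Tr.l x, r) ∈ S) (hy : (Tr.l y, r') ∈ S) : x = y := by
  cases S with
  | nil => exact absurd hx (by simp)
  | cons s S =>
    have h' : ∀ t ∈ S, leq s.1 t.1 = true := sam1_spec h
    have key : ∀ z w, (Tr.l z, w) ∈ s :: S → s.1 = .l z := by
      intro z w hz
      rcases List.mem_cons.1 hz with h1 | h1
      · rw [← h1]
      · exact leq_spec (h' _ h1)
    exact Tr.l.inj ((key x r hx).symm.trans (key y r' hy))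

/-- is the list empty -/
def isNil2 (S : List (Tr × List ℕ)) : Bool :=
  List.rec (motive := fun _ => Bool) true (fun _ _ _ => false) S

/-- below every admissible palette tuple the leaves satisfy `fin` -/
noncomputable def cs2 (l : List ℕ) (PL : List (List ℕ)) (up : ℕ → List ℕ → List ℕ)
    (flt : ℕ → ℕ → ℕ → ℕ → Bool) (fin : List ℕ → List (Tr × List ℕ) → Bool) (n : ℕ) :
    List ℕ → List ℕ → List (Tr × List ℕ) → Bool :=
  Nat.rec (motive := fun _ => List ℕ → List ℕ → List (Tr × List ℕ) → Bool) (fun _ th S => fin th S)
    (fun _ ih ms th S => List.rec (motive := fun _ => Bool) false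
      (fun m ms _ => allR l (fun p => cond (isNil2 (kids2 flt th p (PL.getD p []) S)) true
        (fL (up p ms) fun ms' => ih ms' (p :: th) (kids2 flt th p (PL.getD p []) S))) m) ms) n

/-- `w` is below the palette tuple `v` (continuing the reversed `th`, `r`) -/
def Bel (PL : List (List ℕ)) (flt : ℕ → ℕ → ℕ → ℕ → Bool) : List ℕ → List ℕ → List ℕ → List ℕ → Prop
  | _, _, [], [] => True
  | th, r, p :: v, a :: w => a ∈ PL.getD p [] ∧ flt3 flt th p r a = true ∧
    Bel PL flt (p :: th) (a :: r) v w
  | _, _, _, _ => False

theorem cs2_spec {N : ℕ} {PL : List (List ℕ)} {up : ℕ → List ℕ → List ℕ}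
    {flt : ℕ → ℕ → ℕ → ℕ → Bool} {fin : List ℕ → List (Tr × List ℕ) → Bool} :
    ∀ {v ms th : List ℕ} {S : List (Tr × List ℕ)},
      cs2 (List.range N) PL up flt fin v.length ms th S = true → AdmG N up ms v →
      ∃ S' : List (Tr × List ℕ), (∀ {w r : List ℕ} {s : Tr} {x : ℕ}, Bel PL flt th r v w →
        (s, r) ∈ S → get s w = .l x → (Tr.l x, w.reverse ++ r) ∈ S') ∧
        (S' ≠ [] → fin (v.reverse ++ th) S' = true)
  | [], ms, th, S, h, hA => by
    refine ⟨S, ?_, fun _ => h⟩
    intro w r s x hw hs hx
    cases w with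
    | nil =>
      have hx : s = .l x := hx
      subst hx
      exact hs
    | cons a w => exact absurd hw (by simp [Bel])
  | p :: v, [], th, S, h, hA => absurd hA (by simp [AdmG])
  | p :: v, m :: ms, th, S, h, hA => by
    obtain ⟨h1, h2, h3⟩ := hA
    have h' : allR (List.range N) (fun p => cond (isNil2 (kids2 flt th p (PL.getD p []) S)) true
        (fL (up p ms) fun ms' => cs2 (List.range N) PL up flt fin v.length ms' (p :: th)
          (kids2 flt th p (PL.getD p []) S))) m = true := h
    have h4 := allR_spec h' p (List.mem_range.2 h1) h2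
    cases hk : kids2 flt th p (PL.getD p []) S with
    | nil =>
      refine ⟨[], ?_, fun hn => absurd rfl hn⟩
      intro w r s x hw hs hx
      cases w with
      | nil => exact absurd hw (by simp [Bel])
      | cons a w =>
        obtain ⟨a1, a2, a3⟩ := hw
        have hx' : get (ch s a) w = .l x := hx
        have hne : ch s a ≠ .e := by
          intro he
          rw [he, get_e] at hx'
          cases hx'
        have k1 := mem_kids2 hne a2 a1 hs
        rw [hk] at k1
        exact absurd k1 (by simp)
    | cons k0 K =>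
      rw [hk] at h4
      have h5 : isNil2 (k0 :: K) = false := rfl
      rw [h5, cond_false, fL_eq] at h4
      obtain ⟨S', c1, c2⟩ := cs2_spec (v := v) h4 h3
      refine ⟨S', ?_, ?_⟩
      · intro w r s x hw hs hx
        cases w with
        | nil => exact absurd hw (by simp [Bel])
        | cons a w =>
          obtain ⟨a1, a2, a3⟩ := hw
          have hx' : get (ch s a) w = .l x := hx
          have hne : ch s a ≠ .e := by
            intro he
            rw [he, get_e] at hx'
            cases hx'
          have k1 := mem_kids2 hne a2 a1 hs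
          rw [hk] at k1
          have := c1 a3 k1 hx'
          simpa using this
      · intro hn
        have := c2 hn
        simpa using this

/-! ### The table -/

/-- the data of a table: letters, palettes, tie classes -/
structure Dat where
  /-- number of letters -/
  A : ℕ
  /-- number of palettes -/
  N : ℕ
  /-- neighbours, letters -/
  nb : List ℕ
  /-- antipodes, letters -/
  op : List ℕ
  /-- neighbours, palettes -/
  nbT : List ℕ
  /-- antipodes, palettes -/
  opT : List ℕ
  /-- letters of the palettes -/
  PL : List (List ℕ)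
  /-- colours of the letters -/
  L : List ℕ
  /-- colours of the palettes -/
  P : List ℕ
  /-- number of the tie classes -/
  r : ℕ
  /-- bit of the tie class of a palette (one palette of every class), else `0` -/
  tie : List ℕ

/-- G33: not both letters without the single common colour -/
def flt (D : Dat) (q p b a : ℕ) : Bool :=
  cond (Nat.ble D.A q) (cond (Nat.ble D.A p)
    (cond (Nat.beq (Nat.land (D.P.getD q 0) (D.P.getD p 0)) 0) true
    (cond (Nat.beq (Nat.add (D.L.getD b 0) (Nat.land (D.P.getD q 0) (D.P.getD p 0))) (D.P.getD q 0))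
      (cond (Nat.beq (Nat.add (D.L.getD a 0) (Nat.land (D.P.getD q 0) (D.P.getD p 0))) (D.P.getD p 0))
        false true) true)) true) true

/-- one colour -/
def sing (s : ℕ) : Bool := [1, 2, 4, 8, 16, 32].any (Nat.beq s)

/-- alternating tuple of two triples with one common colour -/
def alt (D : Dat) : List ℕ → Bool
  | [a5, a4, a3, a2, a1, a0] => cond (Nat.beq a5 a3) (cond (Nat.beq a3 a1) (cond (Nat.beq a4 a2)
      (cond (Nat.beq a2 a0) (cond (Nat.ble D.A a0) (cond (Nat.ble D.A a1)
      (sing (Nat.land (D.P.getD a0 0) (D.P.getD a1 0))) false) false) false) false) false) false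
  | _ => false

/-- the tie classes which are used -/
def tmk (tie : List ℕ) : List ℕ → ℕ
  | [] => 0
  | p :: l => Nat.lor (tie.getD p 0) (tmk tie l)

/-- a tie class is used twice -/
def dup (tie : List ℕ) : List ℕ → Bool
  | [] => false
  | p :: l => cond (Nat.beq (Nat.land (tie.getD p 0) (tmk tie l)) 0) (dup tie l) true

/-- the words span the tuple -/
def spn (D : Dat) (S : List (Tr × List ℕ)) (th : List ℕ) : Bool :=
  (List.range 6).all fun k => (List.range 6).all fun c =>
    !(bt (D.P.getD (th.getD k 0) 0) c) || S.any fun s => bt (D.L.getD (s.2.getD k 0) 0) c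

/-- the test below one palette tuple -/
noncomputable def finB (D : Dat) (J : List (List ℕ)) (th : List ℕ) (S : List (Tr × List ℕ)) : Bool :=
  cond (cond (Nat.beq (tmk D.tie th) 0) (sam S)
    (pairs (fun x y => bt ((J.getD (tmk D.tie th) []).getD x 0) y) S S)) true
  (cond (alt D th) true (cond (dup D.tie th) true (cond (spn D S th) false true)))

/-- a word is below a palette tuple (with G33) -/
structure Blw (D : Dat) (t h : ℕ → ℕ) : Prop where
  mem : ∀ k < 6, h k ∈ D.PL.getD (t k) []
  f0 : flt D (t 0) (t 3) (h 0) (h 3) = true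
  f1 : flt D (t 1) (t 4) (h 1) (h 4) = true
  f2 : flt D (t 2) (t 5) (h 2) (h 5) = true

/-- allowed palette tuples -/
structure Alw (D : Dat) (t : ℕ → ℕ) : Prop where
  leg : Leg6 D.N D.nbT D.opT t
  al : alt D [t 5, t 4, t 3, t 2, t 1, t 0] = false
  du : dup D.tie [t 5, t 4, t 3, t 2, t 1, t 0] = false
  sp : ∀ k < 6, ∀ c < 6, bt (D.P.getD (t k) 0) c = true →
    ∃ h, Leg6 D.A D.nb D.op h ∧ Blw D t h ∧ bt (D.L.getD (h k) 0) c = true

/-- the tie classes of a tuple -/
def ties (D : Dat) (t : ℕ → ℕ) : ℕ := tmk D.tie [t 5, t 4, t 3, t 2, t 1, t 0]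

/-- rotated words -/
noncomputable def rwR (Rm : List (List ℕ)) (r a n : ℕ) : Tr → Tr → Bool :=
  Nat.rec (motive := fun _ => Tr → Tr → Bool) (fun s t => lf2 (fun x y =>
    (List.range (2 ^ r)).all fun S => !(bt ((Rm.getD x []).getD S 0) y)) s (ch t a))
    (fun _ ih s t => allC (fun b s' => ih s' (ch t b)) s) n

theorem rwR_spec {Rm : List (List ℕ)} {r a : ℕ} : ∀ {w : List ℕ} {s t : Tr} {x y : ℕ},
    rwR Rm r a w.length s t = true → get s w = .l x → get t (w ++ [a]) = .l y →
      ∀ S < 2 ^ r, bt ((Rm.getD x []).getD S 0) y = false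
  | [], s, t, x, y, h, hx, hy => by
    have hx : s = .l x := hx
    have hy : ch t a = .l y := hy
    have h' : lf2 (fun x y => (List.range (2 ^ r)).all fun S => !(bt ((Rm.getD x []).getD S 0) y)) s
      (ch t a) = true := h
    rw [hx, hy] at h'
    intro S hS
    have h2 := List.all_eq_true.1 (show ((List.range (2 ^ r)).all fun S =>
      !(bt ((Rm.getD x []).getD S 0) y)) = true from h') S (List.mem_range.2 hS)
    simpa using h2
  | b :: w, s, t, x, y, h, hx, hy => by
    have h' : allC (fun b s' => rwR Rm r a w.length s' (ch t b)) s = true := h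
    have hx' : get (ch s b) w = .l x := hx
    have hne : ch s b ≠ .e := by
      intro he
      rw [he, get_e] at hx'
      cases hx'
    exact rwR_spec (w := w) (allC_spec h' hne) hx' hy

/-- consistency of the reachable labels -/
def chR (J Rm : List (List ℕ)) (r nl : ℕ) : Bool :=
  (List.range nl).all fun x => bt ((Rm.getD x []).getD 0 0) x &&
    (List.range (2 ^ r)).all fun S => (List.range (2 ^ r)).all fun tm =>
      Nat.beq tm 0 || !(Nat.beq (Nat.land S tm) 0) || (List.range nl).all fun y =>
        !(bt ((Rm.getD x []).getD S 0) y) ||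
        Nat.beq (Nat.land ((J.getD tm []).getD y 0) ((Rm.getD x []).getD (Nat.lor S tm) 0))
          ((J.getD tm []).getD y 0)

/-- everything which has to be checked -/
noncomputable def chkB (D : Dat) (J Rm : List (List ℕ)) (nl : ℕ) (T : Tr) : Bool :=
  cond (symM D.A D.nb) (cond (symM D.N D.nbT)
  (cond (covG (List.range D.A) (upG D.nb D.op) 6 [2 ^ 40 - 1, 2 ^ 40 - 1, 2 ^ 40 - 1, 2 ^ 40 - 1,
    2 ^ 40 - 1, 2 ^ 40 - 1] T)
  (cond (allC (fun a s => rwR Rm D.r a 5 s T) T)
  (cond (chR J Rm D.r nl)
  (cs2 (List.range D.N) D.PL (upG D.nbT D.opT) (flt D) (finB D J) 6 [2 ^ 40 - 1, 2 ^ 40 - 1,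
    2 ^ 40 - 1, 2 ^ 40 - 1, 2 ^ 40 - 1, 2 ^ 40 - 1] [] [(T, [])]) false) false) false) false) false

end Vale.Agent.P032.Words.Trie
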