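import Vale.Agent.P032.Words.H151.Pal2

/-!
# Box tables with ties: the theorem
-/

namespace Vale.Agent.P032.Words.Trie

/-- all admissible words are in the diagram, the leaves satisfy `lf` -/
noncomputable def covL (l : List ℕ) (up : ℕ → List ℕ → List ℕ) (lf : ℕ → Bool) (n : ℕ) :
    List ℕ → Tr → Bool :=
  Nat.rec (motive := fun _ => List ℕ → Tr → Bool) (fun _ t => lfc lf t)
    (fun _ ih ms t => List.rec (motive := fun _ => Bool) false
      (fun m ms _ => allR l (fun a => fL (up a ms) fun ms' => ih ms' (ch t a)) m) ms) n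

theorem covL_spec {A : ℕ} {up : ℕ → List ℕ → List ℕ} {lf : ℕ → Bool} : ∀ {w ms : List ℕ} {t : Tr},
    covL (List.range A) up lf w.length ms t = true → AdmG A up ms w →
      ∃ v, get t w = .l v ∧ lf v = true
  | [], ms, t, h, _ => by
    have h' : lfc lf t = true := h
    cases t with
    | e => exact absurd h' (by simp [lfc])
    | l v => exact ⟨v, rfl, h'⟩
    | c a s r => exact absurd h' (by simp [lfc])
  | a :: w, [], t, h, hA => absurd hA (by simp [AdmG])
  | a :: w, m :: ms, t, h, hA => by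
    obtain ⟨h1, h2, h3⟩ := hA
    have h' : allR (List.range A) (fun a => fL (up a ms) fun ms' =>
      covL (List.range A) up lf w.length ms' (ch t a)) m = true := h
    have h4 := allR_spec h' a (List.mem_range.2 h1) h2
    rw [fL_eq] at h4
    exact covL_spec (w := w) h4 h3

/-- everything which has to be checked -/
noncomputable def chkQ (D : Dat) (J Rm : List (List ℕ)) (nl : ℕ) (T : Tr) : Bool :=
  cond (symM D.A D.nb) (cond (symM D.N D.nbT) (cond (D.tie.all fun m => Nat.blt m (2 ^ D.r))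
  (cond (covL (List.range D.A) (upG D.nb D.op) (fun v => Nat.blt v nl) 6 [2 ^ 40 - 1, 2 ^ 40 - 1,
    2 ^ 40 - 1, 2 ^ 40 - 1, 2 ^ 40 - 1, 2 ^ 40 - 1] T)
  (cond (allC (fun a s => rwR Rm D.r a 5 s T) T)
  (cond (chR J Rm D.r nl)
  (cs2 (List.range D.N) D.PL (upG D.nbT D.opT) (flt D) (finB D J) 6 [2 ^ 40 - 1, 2 ^ 40 - 1,
    2 ^ 40 - 1, 2 ^ 40 - 1, 2 ^ 40 - 1, 2 ^ 40 - 1] [] [(T, [])]) false) false) false) false)
      false) false

theorem cond_tt {a b : Bool} (h : cond a b false = true) : a = true ∧ b = true := by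
  cases a <;> cases b <;> simp_all

/-- the value of a word -/
noncomputable def val6 (T : Tr) (h : ℕ → ℕ) : ℕ :=
  match get T (w6 h) with
  | .l v => v
  | _ => 0

theorem tmk_lt {tie : List ℕ} {r : ℕ} (h : (tie.all fun m => Nat.blt m (2 ^ r)) = true) :
    ∀ l : List ℕ, tmk tie l < 2 ^ r
  | [] => Nat.two_pow_pos r
  | p :: l => by
    have h1 := tmk_lt h l
    have h2 : tie.getD p 0 < 2 ^ r := by
      rw [List.getD_eq_getElem?_getD]
      cases hp : tie[p]? with
      | none => simp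
      | some m =>
        have hm : m ∈ tie := List.mem_of_getElem? hp
        have := List.all_eq_true.1 h m hm
        have h3 : m < 2 ^ r := Nat.le_of_ble_eq_true this
        simpa using h3
    exact Nat.or_lt_two_pow h2 h1

theorem Blw.bel {D : Dat} {t h : ℕ → ℕ} (hb : Blw D t h) :
    Bel D.PL (flt D) [] [] (w6 t) (w6 h) :=
  ⟨hb.mem 0 (by norm_num), rfl, hb.mem 1 (by norm_num), rfl, hb.mem 2 (by norm_num), rfl,
    hb.mem 3 (by norm_num), hb.f0, hb.mem 4 (by norm_num), hb.f1, hb.mem 5 (by norm_num), hb.f2,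
    trivial⟩

/-- **Box tables with ties.** -/
theorem box_table {D : Dat} {J Rm : List (List ℕ)} {nl : ℕ} {T : Tr} (hA : D.A ≤ 40)
    (hN : D.N ≤ 40) (hc : chkQ D J Rm nl T = true) :
    ∃ (cmp : (ℕ → ℕ) → ℕ) (R : ℕ → ℕ → ℕ → Prop),
      (∀ h, Leg6 D.A D.nb D.op h → R (cmp h) 0 (cmp h)) ∧
      (∀ t h g l S, Alw D t → Leg6 D.A D.nb D.op h → Leg6 D.A D.nb D.op g → Blw D t h → Blw D t g →
        S < 2 ^ D.r → Nat.land S (ties D t) = 0 → R l S (cmp h) →
        R l (Nat.lor S (ties D t)) (cmp g)) ∧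
      (∀ h g S, Leg6 D.A D.nb D.op h → Leg6 D.A D.nb D.op g → (∀ k < 6, g k = h ((k + 1) % 6)) →
        S < 2 ^ D.r → ¬ R (cmp h) S (cmp g)) := by
  unfold chkQ at hc
  obtain ⟨e1, hc⟩ := cond_tt hc
  obtain ⟨e2, hc⟩ := cond_tt hc
  obtain ⟨e3, hc⟩ := cond_tt hc
  obtain ⟨e4, hc⟩ := cond_tt hc
  obtain ⟨e5, hc⟩ := cond_tt hc
  obtain ⟨e6, e7⟩ := cond_tt hc
  have hleaf : ∀ h, Leg6 D.A D.nb D.op h → get T (w6 h) = .l (val6 T h) ∧ val6 T h < nl := by
    intro h hL
    have b : ∀ k < 6, bt (2 ^ 40 - 1) (h k) = true := fun k hk =>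
      bt_pow (n := 40) (lt_of_lt_of_le (hL.lt k hk) hA)
    obtain ⟨v, h1, h2⟩ := covL_spec (w := w6 h) e4 (hL.adm e1 (b 0 (by norm_num))
      (b 1 (by norm_num)) (b 2 (by norm_num)) (b 3 (by norm_num)) (b 4 (by norm_num))
      (b 5 (by norm_num)))
    have h3 : val6 T h = v := by unfold val6; rw [h1]
    rw [h3]
    exact ⟨h1, Nat.le_of_ble_eq_true h2⟩
  have hR : ∀ x < nl, bt ((Rm.getD x []).getD 0 0) x = true ∧ ∀ S < 2 ^ D.r, ∀ tm < 2 ^ D.r,
      tm ≠ 0 → Nat.land S tm = 0 → ∀ y < nl, bt ((Rm.getD x []).getD S 0) y = true →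
      Nat.land ((J.getD tm []).getD y 0) ((Rm.getD x []).getD (Nat.lor S tm) 0)
        = (J.getD tm []).getD y 0 := by
    intro x hx
    have h1 := List.all_eq_true.1 e6 x (List.mem_range.2 hx)
    rw [Bool.and_eq_true] at h1
    refine ⟨h1.1, ?_⟩
    intro S hS tm htm h0 hl y hy hb
    have h2 := List.all_eq_true.1 (List.all_eq_true.1 h1.2 S (List.mem_range.2 hS)) tm
      (List.mem_range.2 htm)
    have h3 : Nat.beq tm 0 = false := by
      cases hq : Nat.beq tm 0 with
      | false => rfl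
      | true => exact absurd (Nat.eq_of_beq_eq_true hq) h0
    rw [h3, hl, show Nat.beq 0 0 = true from rfl, Bool.not_true, Bool.false_or, Bool.false_or] at h2
    have h4 := List.all_eq_true.1 h2 y (List.mem_range.2 hy)
    rw [hb, Bool.not_true, Bool.false_or] at h4
    exact Nat.eq_of_beq_eq_true h4
  refine ⟨val6 T, fun l S y => l < nl ∧ bt ((Rm.getD l []).getD S 0) y = true, ?_, ?_, ?_⟩
  · intro h hL
    exact ⟨(hleaf h hL).2, (hR _ (hleaf h hL).2).1⟩
  · intro t h g l S ht hh hg hb hb' hS hl hr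
    have b : ∀ k < 6, bt (2 ^ 40 - 1) (t k) = true := fun k hk =>
      bt_pow (n := 40) (lt_of_lt_of_le (ht.leg.lt k hk) hN)
    have hadm := ht.leg.adm e2 (b 0 (by norm_num)) (b 1 (by norm_num))
      (b 2 (by norm_num)) (b 3 (by norm_num)) (b 4 (by norm_num)) (b 5 (by norm_num))
    obtain ⟨S', m1, m2⟩ := cs2_spec (v := w6 t) e7 hadm
    have key : ∀ f, Leg6 D.A D.nb D.op f → Blw D t f →
        (Tr.l (val6 T f), [f 5, f 4, f 3, f 2, f 1, f 0]) ∈ S' := fun f hf hbf => by
      have := m1 (w := w6 f) hbf.bel (List.mem_singleton.2 rfl) (hleaf f hf).1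
      simpa [w6] using this
    have k1 := key h hh hb
    have k2 := key g hg hb'
    have hfin := m2 (fun hn => by rw [hn] at k1; exact absurd k1 (by simp))
    have hth : (w6 t).reverse ++ [] = [t 5, t 4, t 3, t 2, t 1, t 0] := by simp [w6]
    rw [hth] at hfin
    have hspn : spn D S' [t 5, t 4, t 3, t 2, t 1, t 0] = true := by
      unfold spn
      refine List.all_eq_true.2 fun k hk => List.all_eq_true.2 fun c hc => ?_
      have hk : k < 6 := List.mem_range.1 hk
      have hc : c < 6 := List.mem_range.1 hc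
      rw [Bool.or_eq_true, Bool.not_eq_true']
      cases hp : bt (D.P.getD ([t 5, t 4, t 3, t 2, t 1, t 0].getD k 0) 0) c with
      | false => exact Or.inl rfl
      | true =>
        right
        have e : [t 5, t 4, t 3, t 2, t 1, t 0].getD k 0 = t (5 - k) := by
          obtain rfl | rfl | rfl | rfl | rfl | rfl : k = 0 ∨ k = 1 ∨ k = 2 ∨ k = 3 ∨ k = 4 ∨ k = 5 := by
            omega
          all_goals rfl
        rw [e] at hp
        obtain ⟨f, f1, f2, f3⟩ := ht.sp (5 - k) (by omega) c hc hp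
        refine List.any_eq_true.2 ⟨_, key f f1 f2, ?_⟩
        have e' : [f 5, f 4, f 3, f 2, f 1, f 0].getD k 0 = f (5 - k) := by
          obtain rfl | rfl | rfl | rfl | rfl | rfl : k = 0 ∨ k = 1 ∨ k = 2 ∨ k = 3 ∨ k = 4 ∨ k = 5 := by
            omega
          all_goals rfl
        show bt (D.L.getD ([f 5, f 4, f 3, f 2, f 1, f 0].getD k 0) 0) c = true
        rw [e']
        exact f3
    unfold finB at hfin
    rw [ht.al, ht.du, hspn] at hfin
    have hmain : cond (Nat.beq (tmk D.tie [t 5, t 4, t 3, t 2, t 1, t 0]) 0) (sam S')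
        (pairs (fun x y => bt ((J.getD (tmk D.tie [t 5, t 4, t 3, t 2, t 1, t 0]) []).getD x 0) y)
          S' S') = true := by
      cases hq : cond (Nat.beq (tmk D.tie [t 5, t 4, t 3, t 2, t 1, t 0]) 0) (sam S')
        (pairs (fun x y => bt ((J.getD (tmk D.tie [t 5, t 4, t 3, t 2, t 1, t 0]) []).getD x 0) y)
          S' S') with
      | true => rfl
      | false => rw [hq] at hfin; exact absurd hfin (by simp)
    refine ⟨hr.1, ?_⟩
    cases htm : Nat.beq (tmk D.tie [t 5, t 4, t 3, t 2, t 1, t 0]) 0 with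
    | true =>
      rw [htm, cond_true] at hmain
      have h1 := sam_spec hmain k1 k2
      have h2 : ties D t = 0 := Nat.eq_of_beq_eq_true htm
      rw [h2, ← h1]
      have h3 : Nat.lor S 0 = S := Nat.or_zero S
      rw [h3]
      exact hr.2
    | false =>
      rw [htm, cond_false] at hmain
      have h1 := pairs_spec hmain _ k1 _ k2
      have h1' : bt ((J.getD (ties D t) []).getD (val6 T h) 0) (val6 T g) = true := h1
      have h0 : ties D t ≠ 0 := by
        intro he
        have he' : tmk D.tie [t 5, t 4, t 3, t 2, t 1, t 0] = 0 := he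
        rw [he'] at htm
        exact absurd htm (by decide)
      have h2 := (hR l hr.1).2 S hS (ties D t) (tmk_lt e3 _) h0 hl (val6 T h) (hleaf h hh).2 hr.2
      have h3 : bt (Nat.land ((J.getD (ties D t) []).getD (val6 T h) 0)
        ((Rm.getD l []).getD (Nat.lor S (ties D t)) 0)) (val6 T g) = true := by rw [h2]; exact h1'
      rw [bt_land, Bool.and_eq_true] at h3
      exact h3.2
  · intro h g S hh hg he hS hr
    obtain ⟨hx, _⟩ := hleaf h hh
    obtain ⟨hy, _⟩ := hleaf g hg
    have hx' : get (ch T (h 0)) [h 1, h 2, h 3, h 4, h 5] = .l (val6 T h) := hx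
    have hy' : get T ([h 1, h 2, h 3, h 4, h 5] ++ [h 0]) = .l (val6 T g) := by
      have : w6 g = [h 1, h 2, h 3, h 4, h 5] ++ [h 0] := by
        unfold w6
        rw [he 0 (by norm_num), he 1 (by norm_num), he 2 (by norm_num), he 3 (by norm_num),
          he 4 (by norm_num), he 5 (by norm_num)]
        rfl
      rw [← this]; exact hy
    have hne : ch T (h 0) ≠ .e := by
      intro he
      rw [he, get_e] at hx'
      cases hx'
    have h5 := allC_spec e5 hne
    have h6 := rwR_spec (w := [h 1, h 2, h 3, h 4, h 5]) h5 hx' hy' S hS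
    rw [h6] at hr
    exact absurd hr.2 (by simp)

end Vale.Agent.P032.Words.Trie
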