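import Vale.Agent.P032.Words.H151.Bits3

/-!
# Words of a six-coloured centre: the generic table

`L` is a list of pairs of colours (bit masks).  Legal words: neighbouring letters are disjoint.  Moves:
one letter is replaced by a letter with one common colour such that the three colours of the two letters
meet the antipodal letter.
-/

namespace Vale.Agent.P032.Words.Bits

/-- two masks have a common colour -/
def mt (x y : ℕ) : Bool := !(Nat.beq (x &&& y) 0)

/-- disjoint letters -/
def nb6 (L : List ℕ) (a b : ℕ) : Bool := !(mt (L.getD a 0) (L.getD b 0))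

/-- neighbouring letters are disjoint -/
def cs6 (L : List ℕ) : List Con := [(0, 1, nb6 L), (1, 2, nb6 L), (2, 3, nb6 L), (3, 4, nb6 L),
  (4, 5, nb6 L), (5, 0, nb6 L)]

/-- legal words -/
def Lg6 (L : List ℕ) : ℕ := legal L.length 6 (cs6 L)

/-- the antipodal letters which allow the move -/
def an6 (L : List ℕ) (a b : ℕ) : List ℕ :=
  (List.range L.length).filter fun c => mt (L.getD c 0) (L.getD a 0 ||| L.getD b 0)

/-- all moves -/
def mv6 (L : List ℕ) : List GM :=
  (List.range 6).flatMap fun k => (List.range L.length).flatMap fun a =>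
    (List.range L.length).filterMap fun b =>
      bif !(Nat.beq a b) && mt (L.getD a 0) (L.getD b 0) then
        some ⟨[(k, a, b)], [((k + 3) % 6, an6 L a b)]⟩ else none

/-- labels -/
def pl6 (L seeds : List ℕ) (J n : ℕ) : List ℕ := planesG L.length 6 J (Lg6 L) (mv6 L) seeds n

/-- the moves which increase the letter -/
def up6 (L : List ℕ) : List GM := (mv6 L).filter fun m => m.ch.all fun c => Nat.blt c.2.1 c.2.2

/-- the check: labels are invariant and no label is fixed by the rotation -/
def chk6 (L seeds : List ℕ) (J n : ℕ) : Bool :=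
  force (pl6 L seeds J n) fun P =>
    Nat.beq (agr (Lg6 L) P (rotP L.length 6 P)) 0 && chkRot L.length 6 (Lg6 L) P &&
      chkAll L.length 6 (Lg6 L) P (up6 L)

theorem force_eq {α : Type} : ∀ (P : List ℕ) (f : List ℕ → α), force P f = f P
  | [], f => rfl
  | X :: P, f => by
    unfold force
    rw [force_eq P]
    cases hX : Nat.beq X 0 with
    | true => rw [cond_true, Nat.eq_of_beq_eq_true hX]
    | false => rw [cond_false]

theorem rot6_apply (h : ℕ → ℕ) : rot 6 h 0 = h 1 ∧ rot 6 h 1 = h 2 ∧ rot 6 h 2 = h 3 ∧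
    rot 6 h 3 = h 4 ∧ rot 6 h 4 = h 5 ∧ rot 6 h 5 = h 0 := by
  unfold rot
  refine ⟨?_, ?_, ?_, ?_, ?_, ?_⟩ <;> rw [rotH_apply] <;> rfl

theorem leg6_iff {L : List ℕ} {h : ℕ → ℕ} : Leg L.length 6 (cs6 L) h ↔ (∀ j < 6, h j < L.length) ∧
    nb6 L (h 0) (h 1) = true ∧ nb6 L (h 1) (h 2) = true ∧ nb6 L (h 2) (h 3) = true ∧
    nb6 L (h 3) (h 4) = true ∧ nb6 L (h 4) (h 5) = true ∧ nb6 L (h 5) (h 0) = true := by
  constructor
  · intro hL
    refine ⟨hL.lt, hL.rel (0, 1, nb6 L) (by simp [cs6]), hL.rel (1, 2, nb6 L) (by simp [cs6]),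
      hL.rel (2, 3, nb6 L) (by simp [cs6]), hL.rel (3, 4, nb6 L) (by simp [cs6]),
      hL.rel (4, 5, nb6 L) (by simp [cs6]), hL.rel (5, 0, nb6 L) (by simp [cs6])⟩
  · rintro ⟨h0, h1, h2, h3, h4, h5, h6⟩
    refine ⟨h0, ?_⟩
    intro c hc
    simp only [cs6, List.mem_cons, List.not_mem_nil, or_false] at hc
    rcases hc with rfl | rfl | rfl | rfl | rfl | rfl <;> assumption

theorem leg6_rot {L : List ℕ} {h : ℕ → ℕ} (hL : Leg L.length 6 (cs6 L) h) :
    Leg L.length 6 (cs6 L) (rot 6 h) := by
  rw [leg6_iff] at hL ⊢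
  obtain ⟨e0, e1, e2, e3, e4, e5⟩ := rot6_apply h
  obtain ⟨h0, h1, h2, h3, h4, h5, h6⟩ := hL
  rw [e0, e1, e2, e3, e4, e5]
  refine ⟨?_, h2, h3, h4, h5, h6, h1⟩
  intro j hj
  interval_cases j
  · rw [e0]; exact h0 1 (by omega)
  · rw [e1]; exact h0 2 (by omega)
  · rw [e2]; exact h0 3 (by omega)
  · rw [e3]; exact h0 4 (by omega)
  · rw [e4]; exact h0 5 (by omega)
  · rw [e5]; exact h0 0 (by omega)

theorem mem_up6 {L : List ℕ} {k a b : ℕ} (hk : k < 6) (ha : a < L.length) (hb : b < L.length)
    (hab : a < b) (hm : mt (L.getD a 0) (L.getD b 0) = true) :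
    (⟨[(k, a, b)], [((k + 3) % 6, an6 L a b)]⟩ : GM) ∈ up6 L := by
  unfold up6 mv6
  rw [List.mem_filter]
  constructor
  · rw [List.mem_flatMap]
    refine ⟨k, List.mem_range.2 hk, ?_⟩
    rw [List.mem_flatMap]
    refine ⟨a, List.mem_range.2 ha, ?_⟩
    rw [List.mem_filterMap]
    refine ⟨b, List.mem_range.2 hb, ?_⟩
    have hne : Nat.beq a b = false := by
      cases h : Nat.beq a b with
      | false => rfl
      | true => exact absurd (Nat.eq_of_beq_eq_true h) (by omega)
    rw [hne, hm]
    rfl
  · simp only [List.all_cons, List.all_nil, Bool.and_true]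
    show Nat.ble (a + 1) b = true
    exact Nat.ble_eq_true_of_le (by omega)

theorem inv6_lt {L P : List ℕ} (hc : chkAll L.length 6 (Lg6 L) P (up6 L) = true) {h : ℕ → ℕ}
    {k b : ℕ} (hk : k < 6) (h1 : Leg L.length 6 (cs6 L) h)
    (h2 : Leg L.length 6 (cs6 L) (Function.update h k b)) (hab : h k < b)
    (hm : mt (L.getD (h k) 0) (L.getD b 0) = true)
    (hx : mt (L.getD (h ((k + 3) % 6)) 0) (L.getD (h k) 0 ||| L.getD b 0) = true) :
    labOf P (code L.length (Function.update h k b) 6) = labOf P (code L.length h 6) := by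
  have hb : b < L.length := by
    have := h2.lt k hk
    rwa [Function.update_self] at this
  have hD : InD 6 (cs6 L) := by
    intro c hc
    simp only [cs6, List.mem_cons, List.not_mem_nil, or_false] at hc
    rcases hc with rfl | rfl | rfl | rfl | rfl | rfl <;> exact ⟨by norm_num, by norm_num⟩
  have hchk := chkAll_spec hc _ (mem_up6 hk (h1.lt k hk) hb hab hm)
  have := GM.chk0_spec hchk (h := h) h1.lt ⟨?_, ?_, ?_, ?_⟩ (legal_mem hD h1) (legal_mem hD h2)
  · exact this
  · intro c hc
    rw [List.mem_singleton.1 hc]; exact hk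
  · intro c hc
    rw [List.mem_singleton.1 hc]
  · exact ⟨rfl, trivial⟩
  · intro c hc
    rw [List.mem_singleton.1 hc]
    have : h ((k + 3) % 6) ∈ an6 L (h k) b := by
      unfold an6
      rw [List.mem_filter]
      exact ⟨List.mem_range.2 (h1.lt _ (Nat.mod_lt _ (by omega))), hx⟩
    simpa using this

/-- **The table gives a function which is invariant under the moves and not under the rotation.** -/
theorem six_table {L seeds : List ℕ} {J n : ℕ} (hc : chk6 L seeds J n = true) :
    ∃ cmp : (ℕ → ℕ) → ℕ, (∀ h, Leg L.length 6 (cs6 L) h → cmp (rot 6 h) ≠ cmp h) ∧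
      ∀ h k b, k < 6 → Leg L.length 6 (cs6 L) h → Leg L.length 6 (cs6 L) (Function.update h k b) →
        mt (L.getD (h k) 0) (L.getD b 0) = true →
        mt (L.getD (h ((k + 3) % 6)) 0) (L.getD (h k) 0 ||| L.getD b 0) = true →
        cmp (Function.update h k b) = cmp h := by
  unfold chk6 at hc
  rw [force_eq, Bool.and_eq_true, Bool.and_eq_true] at hc
  obtain ⟨⟨hc1, hc2⟩, hc3⟩ := hc
  have hD : InD 6 (cs6 L) := by
    intro c hc
    simp only [cs6, List.mem_cons, List.not_mem_nil, or_false] at hc
    rcases hc with rfl | rfl | rfl | rfl | rfl | rfl <;> exact ⟨by norm_num, by norm_num⟩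
  refine ⟨fun h => labOf (pl6 L seeds J n) (code L.length h 6), fun h hL => ?_, ?_⟩
  · exact lab_rot_ne (by norm_num) hc1 hc2 hL.lt (legal_mem hD hL) (legal_mem hD (leg6_rot hL))
  · intro h k b hk h1 h2 hm hx
    rcases lt_trichotomy (h k) b with hab | hab | hab
    · exact inv6_lt hc3 hk h1 h2 hab hm hx
    · rw [← hab, Function.update_eq_self]
    · have e1 : Function.update (Function.update h k b) k (h k) = h := by
        rw [Function.update_idem, Function.update_eq_self]
      have hne : (k + 3) % 6 ≠ k := by omega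
      have := inv6_lt hc3 (h := Function.update h k b) (b := h k) hk h2 (by rw [e1]; exact h1)
        (by rw [Function.update_self]; exact hab)
        (by
          rw [Function.update_self]
          unfold mt at hm ⊢
          rwa [Nat.land_comm])
        (by
          rw [Function.update_self, Function.update_of_ne hne]
          rwa [Nat.lor_comm] at hx)
      rw [e1] at this
      exact this.symm

end Vale.Agent.P032.Words.Bits
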