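import Mathlib

/-!
# Decision diagrams of packed potentials

A diagram over words of letters carries in every leaf one natural number whose digits in base `64` are the
values of several potentials.  The kernel checks that all potentials change by at most the weight along
every move.  Everything is written with the recursors (fast for the kernel).
-/

namespace Vale.Agent.P032.Words.Trie

/-- diagrams: a node is a chain of children `c a t rest` which ends with `e` -/
inductive Tr
  | e : Tr
  | l : ℕ → Tr
  | c : ℕ → Tr → Tr → Tr

/-- evaluate a natural number first -/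
noncomputable def fN {α : Type} (n : ℕ) (k : ℕ → α) : α :=
  Nat.rec (motive := fun _ => α) (k 0) (fun m _ => k (Nat.succ m)) n

theorem fN_eq {α : Type} (n : ℕ) (k : ℕ → α) : fN n k = k n := by
  cases n <;> rfl

/-- the child with a given letter -/
noncomputable def ch (t : Tr) (a : ℕ) : Tr :=
  Tr.rec (motive := fun _ => Tr) .e (fun _ => .e) (fun b s _ _ ih => cond (Nat.beq b a) s ih) t

theorem ch_c {b : ℕ} {s r : Tr} {a : ℕ} : ch (.c b s r) a = cond (Nat.beq b a) s (ch r a) := rfl

theorem ch_e {a : ℕ} : ch .e a = .e := rfl

theorem ch_l {v a : ℕ} : ch (.l v) a = .e := rfl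

/-- lookup -/
noncomputable def get : Tr → List ℕ → Tr
  | t, [] => t
  | t, a :: w => get (ch t a) w

theorem get_e : ∀ w : List ℕ, get .e w = .e
  | [] => rfl
  | _ :: w => get_e w

/-- all children satisfy `f` -/
noncomputable def allC (f : ℕ → Tr → Bool) (t : Tr) : Bool :=
  Tr.rec (motive := fun _ => Bool) true (fun _ => true)
    (fun a s _ _ ih => cond (f a s) ih false) t

theorem allC_spec {f : ℕ → Tr → Bool} {a : ℕ} : ∀ {t : Tr}, allC f t = true → ch t a ≠ .e →
    f a (ch t a) = true
  | .e, _, h => absurd rfl h
  | .l _, _, h => absurd rfl h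
  | .c b s r, h, hn => by
    have h' : cond (f b s) (allC f r) false = true := h
    rw [ch_c] at hn ⊢
    cases hb : Nat.beq b a with
    | true =>
      have := Nat.eq_of_beq_eq_true hb
      subst this
      cases hf : f b s with
      | true => exact hf
      | false => rw [hf] at h'; exact absurd h' (by simp)
    | false =>
      rw [hb] at hn
      have h2 : allC f r = true := by
        cases hf : f b s with
        | true => rw [hf] at h'; exact h'
        | false => rw [hf] at h'; exact absurd h' (by simp)
      exact allC_spec h2 hn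

/-! ### Single changes -/

/-- compare two leaves -/
noncomputable def lf2 (ck : ℕ → ℕ → Bool) (t t' : Tr) : Bool :=
  Tr.rec (motive := fun _ => Bool) true
    (fun x => Tr.rec (motive := fun _ => Bool) true (fun y => ck x y) (fun _ _ _ _ _ => true) t')
    (fun _ _ _ _ _ => true) t

/-- compare all common words of two diagrams -/
noncomputable def pw (ck : ℕ → ℕ → Bool) (n : ℕ) : Tr → Tr → Bool :=
  Nat.rec (motive := fun _ => Tr → Tr → Bool) (fun t t' => lf2 ck t t')
    (fun _ ih t t' => allC (fun a s => ih s (ch t' a)) t) n

theorem pw_spec {ck : ℕ → ℕ → Bool} : ∀ {w : List ℕ} {t t' : Tr} {x y : ℕ},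
    pw ck w.length t t' = true → get t w = .l x → get t' w = .l y → ck x y = true
  | [], t, t', x, y, h, hx, hy => by
    have hx : t = .l x := hx
    have hy : t' = .l y := hy
    subst hx hy
    exact h
  | a :: w, t, t', x, y, h, hx, hy => by
    have h' : allC (fun a s => pw ck w.length s (ch t' a)) t = true := h
    have hx' : get (ch t a) w = .l x := hx
    have hne : ch t a ≠ .e := by
      intro he
      rw [he, get_e] at hx'
      cases hx'
    exact pw_spec (w := w) (allC_spec h' hne) hx' hy

/-- all single changes; `wt a b` is the weight of the change, `al a b` tells if it is allowed -/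
noncomputable def wd (al : ℕ → ℕ → Bool) (ck : ℕ → ℕ → ℕ → Bool) (wt : ℕ → ℕ → ℕ) (n : ℕ) :
    Tr → Bool :=
  Nat.rec (motive := fun _ => Tr → Bool) (fun _ => true)
    (fun n ih t => allC (fun a s => cond (allC (fun b s' => cond (al a b)
      (fN (wt a b) fun W => pw (ck W) n s s') true) t) (ih s) false) t) n

theorem wd_spec {al : ℕ → ℕ → Bool} {ck : ℕ → ℕ → ℕ → Bool} {wt : ℕ → ℕ → ℕ} {a b : ℕ}
    (hal : al a b = true) {s : List ℕ} :
    ∀ {r : List ℕ} {n : ℕ} {t : Tr} {x y : ℕ}, n = r.length + s.length + 1 → wd al ck wt n t = true →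
      get t (r ++ a :: s) = .l x → get t (r ++ b :: s) = .l y → ck (wt a b) x y = true
  | [], n, t, x, y, hn, h, hx, hy => by
    have hx : get (ch t a) s = .l x := hx
    have hy : get (ch t b) s = .l y := hy
    subst hn
    have hn' : ([] : List ℕ).length + s.length + 1 = s.length + 1 := by simp
    rw [hn'] at h
    have h' : allC (fun a s₁ => cond (allC (fun b s' => cond (al a b)
      (fN (wt a b) fun W => pw (ck W) s.length s₁ s') true) t) (wd al ck wt s.length s₁) false) t
        = true := h
    have hxn : ch t a ≠ .e := by
      intro he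
      rw [he, get_e] at hx
      cases hx
    have hyn : ch t b ≠ .e := by
      intro he
      rw [he, get_e] at hy
      cases hy
    have h2 := allC_spec h' hxn
    have h3 : allC (fun b s' => cond (al a b)
      (fN (wt a b) fun W => pw (ck W) s.length (ch t a) s') true) t = true := by
      cases h4 : allC (fun b s' => cond (al a b)
        (fN (wt a b) fun W => pw (ck W) s.length (ch t a) s') true) t with
      | true => rfl
      | false => simp only [h4, cond_false] at h2; exact absurd h2 (by simp)
    have h5 := allC_spec h3 hyn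
    simp only [hal, cond_true, fN_eq] at h5
    exact pw_spec h5 hx hy
  | d :: r, n, t, x, y, hn, h, hx, hy => by
    subst hn
    have hn' : (d :: r).length + s.length + 1 = (r.length + s.length + 1) + 1 := by
      simp only [List.length_cons]; omega
    rw [hn'] at h
    have hx : get (ch t d) (r ++ a :: s) = .l x := hx
    have hy : get (ch t d) (r ++ b :: s) = .l y := hy
    have h' : allC (fun a s₁ => cond (allC (fun b s' => cond (al a b)
      (fN (wt a b) fun W => pw (ck W) (r.length + s.length + 1) s₁ s') true) t)
        (wd al ck wt (r.length + s.length + 1) s₁) false) t = true := h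
    have hxn : ch t d ≠ .e := by
      intro he
      rw [he, get_e] at hx
      cases hx
    have h2 := allC_spec h' hxn
    have h3 : wd al ck wt (r.length + s.length + 1) (ch t d) = true := by
      cases h4 : allC (fun b s' => cond (al d b)
        (fN (wt d b) fun W => pw (ck W) (r.length + s.length + 1) (ch t d) s') true) t with
      | true => simp only [h4, cond_true] at h2; exact h2
      | false => simp only [h4, cond_false] at h2; exact absurd h2 (by simp)
    exact wd_spec hal (r := r) rfl h3 hx hy

/-! ### Moves at several positions -/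

/-- what happens at a position: a static letter in a list, or a change -/
inductive Lv
  | s : List ℕ → Lv
  | c : ℕ → ℕ → Lv

/-- a pair of letters fits -/
def Lv.Fit : Lv → ℕ → ℕ → Prop
  | .s l, a, b => a = b ∧ l.contains a = true
  | .c x y, a, b => a = x ∧ b = y

/-- compare along a move at several positions -/
noncomputable def mw (ck : ℕ → ℕ → Bool) : List Lv → Tr → Tr → Bool
  | [], t, t' => lf2 ck t t'
  | .s l :: L, t, t' => allC (fun a s => cond (l.contains a) (mw ck L s (ch t' a)) true) t
  | .c a b :: L, t, t' => mw ck L (ch t a) (ch t' b)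

/-- the words fit to the move -/
def FitW : List Lv → List ℕ → List ℕ → Prop
  | [], [], [] => True
  | v :: L, a :: w, b :: w' => v.Fit a b ∧ FitW L w w'
  | _, _, _ => False

theorem mw_spec {ck : ℕ → ℕ → Bool} : ∀ {L : List Lv} {w w' : List ℕ} {t t' : Tr} {x y : ℕ},
    mw ck L t t' = true → FitW L w w' → get t w = .l x → get t' w' = .l y → ck x y = true
  | [], [], [], t, t', x, y, h, _, hx, hy => by
    have hx : t = .l x := hx
    have hy : t' = .l y := hy
    subst hx hy
    exact h
  | .s l :: L, a :: w, b :: w', t, t', x, y, h, hf, hx, hy => by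
    obtain ⟨⟨rfl, hl⟩, hf⟩ := hf
    have hx' : get (ch t a) w = .l x := hx
    have hne : ch t a ≠ .e := by
      intro he
      rw [he, get_e] at hx'
      cases hx'
    have h' : allC (fun a s => cond (l.contains a) (mw ck L s (ch t' a)) true) t = true := h
    have h2 := allC_spec h' hne
    simp only [hl, cond_true] at h2
    exact mw_spec (w := w) (w' := w') h2 hf hx' hy
  | .c p q :: L, a :: w, b :: w', t, t', x, y, h, hf, hx, hy => by
    obtain ⟨⟨rfl, rfl⟩, hf⟩ := hf
    exact mw_spec (L := L) (w := w) (w' := w') (h : mw ck L (ch t _) (ch t' _) = true) hf hx hy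
  | [], _ :: _, _, _, _, _, _, _, hf, _, _ => absurd hf (by simp [FitW])
  | [], [], _ :: _, _, _, _, _, _, hf, _, _ => absurd hf (by simp [FitW])
  | .s l :: L, [], w', _, _, _, _, _, hf, _, _ => absurd hf (by cases w' <;> simp [FitW])
  | .s l :: L, _ :: _, [], _, _, _, _, _, hf, _, _ => absurd hf (by simp [FitW])
  | .c p q :: L, [], w', _, _, _, _, _, hf, _, _ => absurd hf (by cases w' <;> simp [FitW])
  | .c p q :: L, _ :: _, [], _, _, _, _, _, hf, _, _ => absurd hf (by simp [FitW])

/-! ### Coverage; the state is the list of the masks of allowed letters of the remaining positions -/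

/-- bit -/
def bt (m a : ℕ) : Bool := Nat.beq (Nat.land (Nat.shiftRight m a) 1) 1

theorem bt_eq (m a : ℕ) : bt m a = m.testBit a := by
  unfold bt
  have h : Nat.land (Nat.shiftRight m a) 1 = (m >>> a) &&& 1 := rfl
  rw [h, Nat.and_one_is_mod]
  rw [Nat.testBit_eq_decide_div_mod_eq, Nat.shiftRight_eq_div_pow]
  rcases Nat.mod_two_eq_zero_or_one (m / 2 ^ a) with h1 | h1 <;> rw [h1] <;> rfl

theorem bt_land (m m' a : ℕ) : bt (Nat.land m m') a = (bt m a && bt m' a) := by
  rw [bt_eq, bt_eq, bt_eq]
  exact Nat.testBit_and m m' a

/-- evaluate a list of numbers first -/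
noncomputable def fL {α : Type} (l : List ℕ) : (List ℕ → α) → α :=
  List.rec (motive := fun _ => (List ℕ → α) → α) (fun k => k [])
    (fun a _ ih k => fN a fun a' => ih fun l' => k (a' :: l')) l

theorem fL_eq {α : Type} : ∀ (l : List ℕ) (k : List ℕ → α), fL l k = k l
  | [], k => rfl
  | a :: l, k => by
    show fN a (fun a' => fL l fun l' => k (a' :: l')) = k (a :: l)
    rw [fN_eq, fL_eq l]

/-- admissible words for a state -/
def Adm (up : ℕ → List ℕ → List ℕ) : List ℕ → List ℕ → Prop
  | [], [] => True
  | m :: ms, a :: w => a < 10 ∧ bt m a = true ∧ Adm up (up a ms) w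
  | _, _ => False

/-- all letters with a bit in the mask satisfy `f` -/
noncomputable def allM (f : ℕ → Bool) (m : ℕ) : Bool :=
  List.rec (motive := fun _ => Bool) true
    (fun a _ ih => cond (bt m a) (cond (f a) ih false) ih) [0, 1, 2, 3, 4, 5, 6, 7, 8, 9]

theorem allM_aux {f : ℕ → Bool} {m : ℕ} : ∀ {l : List ℕ}, List.rec (motive := fun _ => Bool) true
    (fun a _ ih => cond (bt m a) (cond (f a) ih false) ih) l = true → ∀ a ∈ l, bt m a = true →
      f a = true
  | [], _, a, ha, _ => absurd ha (by simp)
  | b :: l, h, a, ha, hb => by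
    have h' : cond (bt m b) (cond (f b) (List.rec (motive := fun _ => Bool) true
      (fun a _ ih => cond (bt m a) (cond (f a) ih false) ih) l) false) (List.rec
      (motive := fun _ => Bool) true
      (fun a _ ih => cond (bt m a) (cond (f a) ih false) ih) l) = true := h
    rcases List.mem_cons.1 ha with rfl | ha
    · rw [hb, cond_true] at h'
      cases hf : f a with
      | true => rfl
      | false => rw [hf] at h'; exact absurd h' (by simp)
    · refine allM_aux (l := l) ?_ a ha hb
      revert h'
      cases bt m b <;> cases f b <;> simp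

theorem allM_spec {f : ℕ → Bool} {m a : ℕ} (h : allM f m = true) (ha : a < 10)
    (hb : bt m a = true) : f a = true := by
  refine allM_aux (l := [0, 1, 2, 3, 4, 5, 6, 7, 8, 9]) h a ?_ hb
  simp only [List.mem_cons, List.not_mem_nil, or_false]
  omega

/-- a leaf with a property -/
noncomputable def lfc (lf : ℕ → Bool) (t : Tr) : Bool :=
  Tr.rec (motive := fun _ => Bool) false (fun v => lf v) (fun _ _ _ _ _ => false) t

/-- all admissible words are in the diagram; the leaves satisfy `lf` -/
noncomputable def cov (up : ℕ → List ℕ → List ℕ) (lf : ℕ → Bool) (n : ℕ) : List ℕ → Tr → Bool :=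
  Nat.rec (motive := fun _ => List ℕ → Tr → Bool) (fun _ t => lfc lf t)
    (fun _ ih ms t => List.rec (motive := fun _ => Bool) false
      (fun m ms _ => allM (fun a => fL (up a ms) fun ms' => ih ms' (ch t a)) m) ms) n

theorem cov_spec {up : ℕ → List ℕ → List ℕ} {lf : ℕ → Bool} : ∀ {w ms : List ℕ} {t : Tr},
    cov up lf w.length ms t = true → Adm up ms w → ∃ v, get t w = .l v ∧ lf v = true
  | [], ms, t, h, _ => by
    have h' : lfc lf t = true := h
    cases t with
    | e => exact absurd h' (by simp [lfc])
    | l v => exact ⟨v, rfl, h'⟩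
    | c a s r => exact absurd h' (by simp [lfc])
  | a :: w, [], t, h, hA => absurd hA (by simp [Adm])
  | a :: w, m :: ms, t, h, hA => by
    obtain ⟨h1, h2, h3⟩ := hA
    have h' : allM (fun a => fL (up a ms) fun ms' => cov up lf w.length ms' (ch t a)) m = true := h
    have h4 := allM_spec h' h1 h2
    rw [fL_eq] at h4
    exact cov_spec (w := w) h4 h3

/-- a property of all admissible words -/
noncomputable def enum (up : ℕ → List ℕ → List ℕ) (f : List ℕ → Bool) (n : ℕ) :
    List ℕ → List ℕ → Bool :=
  Nat.rec (motive := fun _ => List ℕ → List ℕ → Bool) (fun _ r => f r)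
    (fun _ ih ms r => List.rec (motive := fun _ => Bool) false
      (fun m ms _ => allM (fun a => fL (up a ms) fun ms' => ih ms' (a :: r)) m) ms) n

theorem enum_spec {up : ℕ → List ℕ → List ℕ} {f : List ℕ → Bool} : ∀ {w ms r : List ℕ},
    enum up f w.length ms r = true → Adm up ms w → f (w.reverse ++ r) = true
  | [], ms, r, h, _ => h
  | a :: w, [], r, h, hA => absurd hA (by simp [Adm])
  | a :: w, m :: ms, r, h, hA => by
    obtain ⟨h1, h2, h3⟩ := hA
    have h' : allM (fun a => fL (up a ms) fun ms' => enum up f w.length ms' (a :: r)) m = true := h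
    have h4 := allM_spec h' h1 h2
    rw [fL_eq] at h4
    have := enum_spec (w := w) h4 h3
    simpa using this

end Vale.Agent.P032.Words.Trie
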